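import Mathlib

open Finset
open scoped Nat BigOperators

namespace Vale.Agent.Lib.P064F

/-- Auxiliary numeric bound: `8 N (1/125)^N 3^N ≤ 1`. -/
lemma aux_eight_mul (N : ℕ) : (8 * N : ℝ) * (3 / 125 : ℝ) ^ N ≤ 1 := by
  have h1 : (1 + (40 : ℝ)) ^ N ≥ 1 + N * 40 := one_add_mul_le_pow (by norm_num) N
  have h2 : (0 : ℝ) < (3 / 125 : ℝ) ^ N := by positivity
  have h3 : (3 / 125 : ℝ) ^ N * (41 : ℝ) ^ N ≤ 1 := by
    rw [← mul_pow]
    exact pow_le_one₀ (by norm_num) (by norm_num)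
  have h4 : (8 * N : ℝ) ≤ (41 : ℝ) ^ N := by
    have : (1 + (40 : ℝ)) = 41 := by norm_num
    rw [this] at h1
    have hN : (0 : ℝ) ≤ N := Nat.cast_nonneg N
    nlinarith
  calc (8 * N : ℝ) * (3 / 125 : ℝ) ^ N ≤ (41 : ℝ) ^ N * (3 / 125 : ℝ) ^ N := by gcongr
    _ = (3 / 125 : ℝ) ^ N * (41 : ℝ) ^ N := by ring
    _ ≤ 1 := h3

/-- `N^p ≤ p! 3^N`. -/
lemma aux_pow_le (N p : ℕ) : (N : ℝ) ^ p ≤ (p ! : ℝ) * 3 ^ N := by
  have h := Real.pow_div_factorial_le_exp (x := (N : ℝ)) (Nat.cast_nonneg N) p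
  have h2 : Real.exp (N : ℝ) ≤ 3 ^ N := by
    have : Real.exp (N : ℝ) = (Real.exp 1) ^ N := by
      rw [← Real.exp_nat_mul]; simp
    rw [this]
    gcongr
    have := Real.exp_one_lt_d9
    linarith
  have hf : (0 : ℝ) < (p ! : ℝ) := by positivity
  rw [div_le_iff₀ hf] at h
  nlinarith


section Cases

variable {ι : Type*} [DecidableEq ι]

/-- numeric step in case one -/
lemma case_one_num (h l Nl : ℕ) (G : ℝ) (hG : 0 < G) (hL : 8 * (Nl : ℝ) ≤ G) (c : ℕ)
    (hc : c ≤ Nl.choose l) :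
    (((h + l)! : ℕ) : ℝ) * (c : ℝ) * (2 / G) ^ l ≤ 2 ^ h * (h ! : ℝ) := by
  have h1 : ((h + l)! : ℝ) = ((h + l).choose h : ℝ) * (h ! : ℝ) * (l ! : ℝ) := by
    have := Nat.add_choose_mul_factorial_mul_factorial h l
    rw [← this, Nat.choose_symm_add]; push_cast; ring
  have h2 : (l ! : ℝ) * (Nl.choose l : ℝ) ≤ (Nl : ℝ) ^ l := by
    have := Nat.descFactorial_le_pow Nl l
    rw [Nat.descFactorial_eq_factorial_mul_choose] at this
    exact_mod_cast this
  have h3 : ((h + l).choose h : ℝ) ≤ 2 ^ h * 2 ^ l := by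
    have := Nat.choose_le_two_pow (h + l) h
    rw [pow_add] at this
    exact_mod_cast this
  have hcr : (c : ℝ) ≤ (Nl.choose l : ℝ) := by exact_mod_cast hc
  have h4 : (Nl : ℝ) ^ l * (2 / G) ^ l * 2 ^ l ≤ 1 := by
    rw [← mul_pow, ← mul_pow]
    apply pow_le_one₀
    · positivity
    · rw [mul_div_assoc', div_mul_eq_mul_div, div_le_one hG]
      nlinarith [Nat.cast_nonneg (α := ℝ) Nl]
  have hpos : (0 : ℝ) ≤ (2 / G) ^ l := by positivity
  have hh : (0 : ℝ) ≤ 2 ^ h * (h ! : ℝ) := by positivity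
  calc ((h + l)! : ℝ) * (c : ℝ) * (2 / G) ^ l
      ≤ ((h + l).choose h : ℝ) * (h ! : ℝ) * (l ! : ℝ) * (Nl.choose l : ℝ) * (2 / G) ^ l := by
        rw [h1]; gcongr
    _ = ((h + l).choose h : ℝ) * (h ! : ℝ) * ((l ! : ℝ) * (Nl.choose l : ℝ)) * (2 / G) ^ l := by
        ring
    _ ≤ ((h + l).choose h : ℝ) * (h ! : ℝ) * (Nl : ℝ) ^ l * (2 / G) ^ l := by gcongr
    _ ≤ (2 ^ h * 2 ^ l) * (h ! : ℝ) * (Nl : ℝ) ^ l * (2 / G) ^ l := by gcongr
    _ = 2 ^ h * (h ! : ℝ) * ((Nl : ℝ) ^ l * (2 / G) ^ l * 2 ^ l) := by ring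
    _ ≤ 2 ^ h * (h ! : ℝ) * 1 := by gcongr
    _ = 2 ^ h * (h ! : ℝ) := by ring

/-- Splitting a sum over `k`-subsets along a partition into heavy and light elements. -/
lemma split_sum (D Q : Finset ι) (hQ : Q ⊆ D) (y : ι → ℝ) (hy : ∀ i ∈ D, 0 ≤ y i) (G : ℝ)
    (hG : 0 < G) (hL : 8 * ((D \ Q).card : ℝ) ≤ G) (hya : ∀ i ∈ D \ Q, y i = 2 / G) (k : ℕ) :
    (k ! : ℝ) * ∑ J ∈ D.powersetCard k, ∏ i ∈ J, y i
      ≤ ∑ J₁ ∈ Q.powerset, (2 ^ J₁.card * (J₁.card ! : ℝ)) * ∏ i ∈ J₁, y i := by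
  classical
  have hmaps : ∀ J ∈ D.powersetCard k, J ∩ Q ∈ Q.powerset := fun J _ =>
    Finset.mem_powerset.2 Finset.inter_subset_right
  rw [← Finset.sum_fiberwise_of_maps_to hmaps, Finset.mul_sum]
  apply Finset.sum_le_sum
  intro J₁ hJ₁
  have hJ₁Q : J₁ ⊆ Q := Finset.mem_powerset.1 hJ₁
  set fib := (D.powersetCard k).filter (fun J => J ∩ Q = J₁) with hfib
  have hy1 : 0 ≤ ∏ i ∈ J₁, y i := Finset.prod_nonneg fun i hi => hy i (hQ (hJ₁Q hi))
  by_cases hfe : fib.Nonempty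
  · obtain ⟨J₀, hJ₀⟩ := hfe
    have hJ₀' := (Finset.mem_filter.1 hJ₀)
    have hsub : J₁ ⊆ J₀ := by
      rw [← hJ₀'.2]; exact Finset.inter_subset_left
    have hcardJ₀ : J₀.card = k := (Finset.mem_powersetCard.1 hJ₀'.1).2
    have hle : J₁.card ≤ k := hcardJ₀ ▸ Finset.card_le_card hsub
    obtain ⟨l, hl⟩ := Nat.exists_eq_add_of_le hle
    -- each term
    have hterm : ∀ J ∈ fib, ∏ i ∈ J, y i = (∏ i ∈ J₁, y i) * (2 / G) ^ l := by
      intro J hJ
      have hJ' := Finset.mem_filter.1 hJ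
      have hJsub : J₁ ⊆ J := by rw [← hJ'.2]; exact Finset.inter_subset_left
      have hJD := Finset.mem_powersetCard.1 hJ'.1
      rw [← Finset.prod_sdiff hJsub, mul_comm]
      congr 1
      have hcard : (J \ J₁).card = l := by
        rw [Finset.card_sdiff_of_subset hJsub, hJD.2, hl]; omega
      rw [← hcard, ← Finset.prod_const]
      apply Finset.prod_congr rfl
      intro i hi
      apply hya
      have hi' := Finset.mem_sdiff.1 hi
      refine Finset.mem_sdiff.2 ⟨hJD.1 hi'.1, fun hiQ => hi'.2 ?_⟩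
      rw [← hJ'.2]; exact Finset.mem_inter.2 ⟨hi'.1, hiQ⟩
    have hcardfib : fib.card ≤ ((D \ Q).card).choose l := by
      rw [← Finset.card_powersetCard]
      apply Finset.card_le_card_of_injOn (fun J => J \ J₁)
      · intro J hJ
        have hJ' := Finset.mem_filter.1 hJ
        have hJsub : J₁ ⊆ J := by rw [← hJ'.2]; exact Finset.inter_subset_left
        have hJD := Finset.mem_powersetCard.1 hJ'.1
        apply Finset.mem_coe.2
        refine Finset.mem_powersetCard.2 ⟨?_, ?_⟩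
        · intro i hi
          have hi' := Finset.mem_sdiff.1 hi
          refine Finset.mem_sdiff.2 ⟨hJD.1 hi'.1, fun hiQ => hi'.2 ?_⟩
          rw [← hJ'.2]; exact Finset.mem_inter.2 ⟨hi'.1, hiQ⟩
        · rw [Finset.card_sdiff_of_subset hJsub, hJD.2, hl]; omega
      · intro J hJ J' hJ' heq
        have h1 := Finset.mem_filter.1 (Finset.mem_coe.1 hJ)
        have h2 := Finset.mem_filter.1 (Finset.mem_coe.1 hJ')
        have hs1 : J₁ ⊆ J := by rw [← h1.2]; exact Finset.inter_subset_left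
        have hs2 : J₁ ⊆ J' := by rw [← h2.2]; exact Finset.inter_subset_left
        have e1 := Finset.sdiff_union_of_subset hs1
        have e2 := Finset.sdiff_union_of_subset hs2
        simp only at heq
        rw [← e1, ← e2, heq]
    rw [Finset.sum_congr rfl hterm, Finset.sum_const, nsmul_eq_mul]
    have hnum := case_one_num J₁.card l (D \ Q).card G hG hL fib.card hcardfib
    rw [← hl] at hnum
    calc (k ! : ℝ) * ((fib.card : ℝ) * ((∏ i ∈ J₁, y i) * (2 / G) ^ l))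
        = ((k ! : ℝ) * (fib.card : ℝ) * (2 / G) ^ l) * ∏ i ∈ J₁, y i := by ring
      _ ≤ _ := by gcongr
  · rw [Finset.not_nonempty_iff_eq_empty.1 hfe]
    simp only [Finset.sum_empty, mul_zero]
    positivity

end Cases


section Heavy

variable {ι : Type*} [DecidableEq ι]

/-- Sum over subsets of heavy elements. -/
lemma heavy_sum (Q : Finset ι) (z : ι → ℝ) (Θ : ℝ) (hΘ : 1 ≤ Θ) (hz : ∀ i ∈ Q, 2000 ≤ z i) :
    ∑ J₁ ∈ Q.powerset, (2 ^ J₁.card * (J₁.card ! : ℝ)) * ∏ i ∈ J₁, (z i / (1000 * Θ))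
      ≤ 1 + (1 / 250) * (((Q.card ! : ℝ) * ∏ i ∈ Q, z i) / Θ) := by
  classical
  have hΘ0 : 0 < Θ := by linarith
  have hzpos : ∀ i ∈ Q, 0 < z i := fun i hi => by linarith [hz i hi]
  have hP : 0 < ∏ i ∈ Q, z i := Finset.prod_pos hzpos
  set V := (Q.card ! : ℝ) * ∏ i ∈ Q, z i with hV
  have hVpos : 0 < V := by positivity
  have hemp : (∅ : Finset ι) ∈ Q.powerset := Finset.empty_mem_powerset Q
  rw [← Finset.add_sum_erase _ _ hemp]
  simp only [Finset.card_empty, pow_zero, Nat.factorial_zero, Nat.cast_one, mul_one,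
    Finset.prod_empty]
  by_cases hQ : Q = ∅
  · subst hQ
    simp only [Finset.powerset_empty]
    rw [show ({∅} : Finset (Finset ι)).erase ∅ = ∅ from by simp]
    simp
    positivity
  have hM : 1 ≤ Q.card := Finset.card_pos.2 (Finset.nonempty_iff_ne_empty.2 hQ)
  have hterm : ∀ J₁ ∈ Q.powerset.erase ∅,
      (2 ^ J₁.card * (J₁.card ! : ℝ)) * ∏ i ∈ J₁, (z i / (1000 * Θ))
        ≤ (1 / 500 : ℝ) ^ Q.card * (V / Θ) := by
    intro J₁ hJ₁
    obtain ⟨hne, hsub⟩ := Finset.mem_erase.1 hJ₁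
    have hsub' := Finset.mem_powerset.1 hsub
    have hh : 1 ≤ J₁.card := Finset.card_pos.2 (Finset.nonempty_iff_ne_empty.2 hne)
    have hfac : (J₁.card ! : ℝ) ≤ (Q.card ! : ℝ) := by
      exact_mod_cast Nat.factorial_le (Finset.card_le_card hsub')
    rw [Finset.prod_div_distrib, Finset.prod_const]
    have hsplit : ∏ i ∈ Q, z i = (∏ i ∈ Q \ J₁, z i) * ∏ i ∈ J₁, z i :=
      (Finset.prod_sdiff hsub').symm
    have hJpos : 0 < ∏ i ∈ J₁, z i := Finset.prod_pos fun i hi => hzpos i (hsub' hi)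
    have hrest : (2000 : ℝ) ^ (Q.card - J₁.card) ≤ ∏ i ∈ Q \ J₁, z i := by
      rw [← Finset.card_sdiff_of_subset hsub', ← Finset.prod_const]
      apply Finset.prod_le_prod
      · intros; norm_num
      · intro i hi; exact hz i (Finset.mem_sdiff.1 hi).1
    have hJbound : (∏ i ∈ J₁, z i) * (2000 : ℝ) ^ (Q.card - J₁.card) ≤ ∏ i ∈ Q, z i := by
      rw [hsplit, mul_comm]; gcongr
    have hΘh : Θ ≤ Θ ^ J₁.card := le_self_pow₀ hΘ (by omega)
    have hpow : (1000 * Θ) ^ J₁.card = 1000 ^ J₁.card * Θ ^ J₁.card := mul_pow _ _ _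
    rw [hpow]
    have hM' : (1 / 500 : ℝ) ^ Q.card = (1 / 500 : ℝ) ^ J₁.card * (1 / 500 : ℝ) ^ (Q.card - J₁.card) := by
      rw [← pow_add]; congr 1; have := Finset.card_le_card hsub'; omega
    have hA1 : (1 / 500 : ℝ) ^ (Q.card - J₁.card) * (2000 : ℝ) ^ (Q.card - J₁.card) ≥ 1 := by
      rw [← mul_pow]; exact one_le_pow₀ (by norm_num)
    have h2 : (2 : ℝ) ^ J₁.card / 1000 ^ J₁.card = (1 / 500 : ℝ) ^ J₁.card := by
      rw [← div_pow]; norm_num
    rw [hM', hV]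
    have h5 : (2 ^ J₁.card * (J₁.card ! : ℝ)) * ((∏ i ∈ J₁, z i) / (1000 ^ J₁.card * Θ ^ J₁.card))
        = ((1 / 500 : ℝ) ^ J₁.card) * (J₁.card ! : ℝ) * (∏ i ∈ J₁, z i) / Θ ^ J₁.card := by
      rw [← h2]; field_simp
    rw [h5]
    have hpos5 : (0:ℝ) < (1 / 500 : ℝ) ^ J₁.card := by positivity
    calc ((1 / 500 : ℝ) ^ J₁.card) * (J₁.card ! : ℝ) * (∏ i ∈ J₁, z i) / Θ ^ J₁.card
        ≤ ((1 / 500 : ℝ) ^ J₁.card) * (Q.card ! : ℝ) * (∏ i ∈ J₁, z i) / Θ := by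
          gcongr
      _ ≤ ((1 / 500 : ℝ) ^ J₁.card) * (Q.card ! : ℝ)
            * ((1 / 500 : ℝ) ^ (Q.card - J₁.card) * ((2000 : ℝ) ^ (Q.card - J₁.card) * ∏ i ∈ J₁, z i)) / Θ := by
          gcongr
          have : (∏ i ∈ J₁, z i) = 1 * ∏ i ∈ J₁, z i := by ring
          nlinarith [mul_le_mul_of_nonneg_right hA1 hJpos.le]
      _ ≤ ((1 / 500 : ℝ) ^ J₁.card) * (Q.card ! : ℝ)
            * ((1 / 500 : ℝ) ^ (Q.card - J₁.card) * ∏ i ∈ Q, z i) / Θ := by
          gcongr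
          linarith [hJbound]
      _ = _ := by ring
  have hsum := Finset.sum_le_card_nsmul _ _ _ hterm
  have hcard : ((Q.powerset.erase ∅).card : ℝ) ≤ 2 ^ Q.card := by
    have h1 : (Q.powerset.erase ∅).card ≤ Q.powerset.card := Finset.card_le_card (Finset.erase_subset _ _)
    rw [Finset.card_powerset] at h1
    exact_mod_cast h1
  have hVΘ : 0 ≤ V / Θ := by positivity
  have h250 : (2 : ℝ) ^ Q.card * (1 / 500 : ℝ) ^ Q.card ≤ 1 / 250 := by
    rw [← mul_pow]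
    calc ((2 : ℝ) * (1 / 500)) ^ Q.card ≤ ((2 : ℝ) * (1 / 500)) ^ 1 :=
          pow_le_pow_of_le_one (by norm_num) (by norm_num) hM
      _ = 1 / 250 := by norm_num
  have : ∑ J₁ ∈ Q.powerset.erase ∅, (2 ^ J₁.card * (J₁.card ! : ℝ)) * ∏ i ∈ J₁, (z i / (1000 * Θ))
      ≤ (1 / 250) * (V / Θ) := by
    calc _ ≤ _ := hsum
      _ = ((Q.powerset.erase ∅).card : ℝ) * ((1 / 500 : ℝ) ^ Q.card * (V / Θ)) := by
          rw [nsmul_eq_mul]
      _ ≤ (2 : ℝ) ^ Q.card * ((1 / 500 : ℝ) ^ Q.card * (V / Θ)) := by gcongr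
      _ = ((2 : ℝ) ^ Q.card * (1 / 500 : ℝ) ^ Q.card) * (V / Θ) := by ring
      _ ≤ _ := by gcongr
  linarith

end Heavy


section Light

variable {ι : Type*} [DecidableEq ι]

lemma light_num (h p p' Nl : ℕ) (Chat Θ G : ℝ) (hsum : p + p' = Nl) (hNl : 1 ≤ Nl)
    (hG : G = 1000 * Chat) (hC : 0 < Chat) (hlt : G < 8 * (Nl : ℝ)) (hΘ1 : 1 ≤ Θ)
    (hΘ : Θ ≤ 8 * (Nl : ℝ)) :
    (1 / (1000 * Θ)) ^ h * Θ * (1 / 500 : ℝ) ^ p * Chat ^ p' ≤ (p' ! : ℝ) := by
  have hΘ0 : 0 < Θ := by linarith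
  have hNlr : (1 : ℝ) ≤ Nl := by exact_mod_cast hNl
  have ha : (1 / (1000 * Θ)) ^ h * Θ ≤ 8 * (Nl : ℝ) := by
    rcases Nat.eq_zero_or_pos h with h0 | h0
    · subst h0; simpa using hΘ
    · have hle : (1 / (1000 * Θ)) ≤ 1 := by
        rw [div_le_one (by positivity)]; nlinarith
      have : (1 / (1000 * Θ)) ^ h ≤ (1 / (1000 * Θ)) ^ 1 :=
        pow_le_pow_of_le_one (by positivity) hle h0
      calc (1 / (1000 * Θ)) ^ h * Θ ≤ (1 / (1000 * Θ)) ^ 1 * Θ := by gcongr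
        _ = 1 / 1000 := by field_simp
        _ ≤ 8 * (Nl : ℝ) := by linarith
  have hb : Chat ≤ (Nl : ℝ) * (1 / 125) := by
    rw [hG] at hlt; linarith
  have hc : (1 / 500 : ℝ) ^ p ≤ (1 / 125 : ℝ) ^ p := by
    gcongr; norm_num
  have hd : Chat ^ p' ≤ (Nl : ℝ) ^ p' * (1 / 125 : ℝ) ^ p' := by
    rw [← mul_pow]; gcongr
  have he := aux_pow_le Nl p'
  have hf := aux_eight_mul Nl
  have hfac : (0 : ℝ) < (p' ! : ℝ) := by positivity
  have hNl0 : (0 : ℝ) ≤ (Nl : ℝ) := by positivity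
  calc (1 / (1000 * Θ)) ^ h * Θ * (1 / 500 : ℝ) ^ p * Chat ^ p'
      ≤ (8 * (Nl : ℝ)) * (1 / 125 : ℝ) ^ p * ((Nl : ℝ) ^ p' * (1 / 125 : ℝ) ^ p') := by
        gcongr
    _ ≤ (8 * (Nl : ℝ)) * (1 / 125 : ℝ) ^ p * (((p' ! : ℝ) * 3 ^ Nl) * (1 / 125 : ℝ) ^ p') := by
        gcongr
    _ = (p' ! : ℝ) * ((8 * (Nl : ℝ)) * ((3 : ℝ) ^ Nl * ((1 / 125 : ℝ) ^ (p + p')))) := by
        rw [pow_add]; ring
    _ = (p' ! : ℝ) * ((8 * (Nl : ℝ)) * (3 / 125 : ℝ) ^ Nl) := by
        rw [hsum, show (3 / 125 : ℝ) = 3 * (1 / 125) by norm_num, mul_pow]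
    _ ≤ (p' ! : ℝ) * 1 := by gcongr
    _ = (p' ! : ℝ) := by ring

lemma light_term (D J : Finset ι) (hJ : J ⊆ D) (A : ι → ℝ) (Chat Θ G : ℝ) (hC : 0 < Chat)
    (hG : G = 1000 * Chat) (hΘ : Θ = max G 1) (hA : ∀ i ∈ D, 1 ≤ A i)
    (hL : G < 8 * ((D.filter (fun i => A i ≤ 2 * Θ)).card : ℝ)) :
    (∏ i ∈ J, (max 2 (A i / Θ) / G)) * Θ
      ≤ (((D.card - J.card)! : ℕ) : ℝ) * ∏ i ∈ D, (A i / Chat) := by
  classical
  have hGpos : 0 < G := by rw [hG]; positivity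
  have hΘ1 : 1 ≤ Θ := by rw [hΘ]; exact le_max_right _ _
  have hΘG : G ≤ Θ := by rw [hΘ]; exact le_max_left _ _
  have hΘ0 : 0 < Θ := by linarith
  set P : ι → Prop := fun i => A i ≤ 2 * Θ with hP
  set Nl := (D.filter P).card with hNl
  have hNl1 : 1 ≤ Nl := by
    by_contra hcon
    have : Nl = 0 := by omega
    rw [this] at hL
    simp at hL
    linarith
  have hNlr : (1 : ℝ) ≤ Nl := by exact_mod_cast hNl1
  have hΘle : Θ ≤ 8 * (Nl : ℝ) := by
    rw [hΘ]; exact max_le hL.le (by linarith)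
  set z : ι → ℝ := fun i => A i / Chat with hz
  have hzpos : ∀ i ∈ D, 0 < z i := fun i hi => div_pos (by linarith [hA i hi]) hC
  set J' := J.filter (fun i => ¬ P i) with hJ'
  set JL := J.filter P with hJL
  set R := D \ J with hR
  set RL := R.filter P with hRL
  set RQ := R.filter (fun i => ¬ P i) with hRQ
  have hcardsum : JL.card + RL.card = Nl := by
    have hdisj : Disjoint JL RL := by
      rw [Finset.disjoint_left]
      intro i hi hi'
      have h1 := (Finset.mem_filter.1 hi).1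
      have h2 := (Finset.mem_sdiff.1 (Finset.mem_filter.1 hi').1).2
      exact h2 h1
    rw [← Finset.card_union_of_disjoint hdisj, hNl]
    congr 1
    ext i
    simp only [hJL, hRL, hR, Finset.mem_union, Finset.mem_filter, Finset.mem_sdiff]
    constructor
    · rintro (⟨h1, h2⟩ | ⟨⟨h1, _⟩, h2⟩)
      · exact ⟨hJ h1, h2⟩
      · exact ⟨h1, h2⟩
    · rintro ⟨h1, h2⟩
      by_cases hi : i ∈ J
      · exact Or.inl ⟨hi, h2⟩
      · exact Or.inr ⟨⟨h1, hi⟩, h2⟩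
  have hnum := light_num J'.card JL.card RL.card Nl Chat Θ G hcardsum hNl1 hG hC
    (by rw [hNl]; exact hL) hΘ1 hΘle
  -- product over J
  have hprodJ : ∏ i ∈ J, (max 2 (A i / Θ) / G)
      ≤ (1 / (1000 * Θ)) ^ J'.card * (1 / 500 : ℝ) ^ JL.card * ∏ i ∈ J, z i := by
    rw [← Finset.prod_filter_mul_prod_filter_not J P (fun i => max 2 (A i / Θ) / G),
      ← Finset.prod_filter_mul_prod_filter_not J P z]
    have h1 : ∏ i ∈ J.filter P, (max 2 (A i / Θ) / G) ≤ (1 / 500 : ℝ) ^ JL.card * ∏ i ∈ JL, z i := by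
      rw [← Finset.prod_const, ← Finset.prod_mul_distrib]
      apply Finset.prod_le_prod
      · intro i hi
        have : 0 ≤ max 2 (A i / Θ) := le_trans (by norm_num) (le_max_left _ _)
        positivity
      · intro i hi
        obtain ⟨hiJ, hiP⟩ := Finset.mem_filter.1 hi
        have hmax : max 2 (A i / Θ) = 2 := by
          apply max_eq_left
          rw [div_le_iff₀ hΘ0]; exact hiP
        rw [hmax, hG]
        have hAi := hA i (hJ hiJ)
        simp only [hz]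
        rw [div_le_iff₀ (by positivity)]
        have : 1 / 500 * (A i / Chat) * (1000 * Chat) = 2 * A i := by field_simp; norm_num
        rw [this]; linarith
    have h2 : ∏ i ∈ J.filter (fun i => ¬ P i), (max 2 (A i / Θ) / G)
        = (1 / (1000 * Θ)) ^ J'.card * ∏ i ∈ J', z i := by
      rw [← Finset.prod_const, ← Finset.prod_mul_distrib]
      apply Finset.prod_congr rfl
      intro i hi
      obtain ⟨hiJ, hiP⟩ := Finset.mem_filter.1 hi
      have hmax : max 2 (A i / Θ) = A i / Θ := by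
        apply max_eq_right
        rw [le_div_iff₀ hΘ0]
        simp only [hP, not_le] at hiP
        linarith
      rw [hmax, hG]
      simp only [hz]
      field_simp
    rw [h2]
    have hnn : 0 ≤ ∏ i ∈ J.filter (fun i => ¬ P i), z i :=
      Finset.prod_nonneg fun i hi => (hzpos i (hJ (Finset.mem_filter.1 hi).1)).le
    have h1' : 0 ≤ (1 / (1000 * Θ)) ^ J'.card * ∏ i ∈ J', z i := by positivity
    calc (∏ i ∈ J.filter P, (max 2 (A i / Θ) / G)) * ((1 / (1000 * Θ)) ^ J'.card * ∏ i ∈ J', z i)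
        ≤ ((1 / 500 : ℝ) ^ JL.card * ∏ i ∈ JL, z i) * ((1 / (1000 * Θ)) ^ J'.card * ∏ i ∈ J', z i) := by
          gcongr
      _ = _ := by ring
  -- product over the rest
  have hprodR : (1 / Chat) ^ RL.card ≤ ∏ i ∈ R, z i := by
    rw [← Finset.prod_filter_mul_prod_filter_not R P z]
    have h1 : (1 / Chat) ^ RL.card ≤ ∏ i ∈ RL, z i := by
      rw [← Finset.prod_const]
      apply Finset.prod_le_prod
      · intros; positivity
      · intro i hi
        have hiD := (Finset.mem_sdiff.1 (Finset.mem_filter.1 hi).1).1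
        simp only [hz]
        gcongr
        exact hA i hiD
    have h2 : 1 ≤ ∏ i ∈ RQ, z i := by
      have : ∏ i ∈ RQ, (1 : ℝ) ≤ ∏ i ∈ RQ, z i := by
        apply Finset.prod_le_prod
        · intros; norm_num
        · intro i hi
          obtain ⟨hiR, hiP⟩ := Finset.mem_filter.1 hi
          simp only [hP, not_le] at hiP
          simp only [hz]
          rw [le_div_iff₀ hC, one_mul]
          rw [hG] at hΘG
          nlinarith
      simpa using this
    have h3 : 0 ≤ (1 / Chat) ^ RL.card := by positivity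
    calc (1 / Chat) ^ RL.card = (1 / Chat) ^ RL.card * 1 := by ring
      _ ≤ (∏ i ∈ RL, z i) * ∏ i ∈ RQ, z i := by
        apply mul_le_mul h1 h2 (by norm_num)
        exact le_trans h3 h1
  have hJz : 0 < ∏ i ∈ J, z i := Finset.prod_pos fun i hi => hzpos i (hJ hi)
  have hDz : ∏ i ∈ D, z i = (∏ i ∈ R, z i) * ∏ i ∈ J, z i := (Finset.prod_sdiff hJ).symm
  have hfac : ((RL.card ! : ℕ) : ℝ) ≤ (((D.card - J.card)! : ℕ) : ℝ) := by
    have h1 : RL.card ≤ R.card := Finset.card_le_card (Finset.filter_subset _ _)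
    have h2 : R.card = D.card - J.card := Finset.card_sdiff_of_subset hJ
    exact_mod_cast Nat.factorial_le (h2 ▸ h1)
  have hnum2 : (1 / (1000 * Θ)) ^ J'.card * Θ * (1 / 500 : ℝ) ^ JL.card
      ≤ (RL.card ! : ℝ) * (1 / Chat) ^ RL.card := by
    have hCp : 0 < Chat ^ RL.card := by positivity
    have : (1 / Chat) ^ RL.card = 1 / Chat ^ RL.card := by rw [one_div, one_div, inv_pow]
    rw [this, mul_one_div, le_div_iff₀ hCp]
    exact hnum
  calc (∏ i ∈ J, (max 2 (A i / Θ) / G)) * Θ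
      ≤ ((1 / (1000 * Θ)) ^ J'.card * (1 / 500 : ℝ) ^ JL.card * ∏ i ∈ J, z i) * Θ := by
        gcongr
    _ = ((1 / (1000 * Θ)) ^ J'.card * Θ * (1 / 500 : ℝ) ^ JL.card) * ∏ i ∈ J, z i := by ring
    _ ≤ ((RL.card ! : ℝ) * (1 / Chat) ^ RL.card) * ∏ i ∈ J, z i := by gcongr
    _ ≤ ((((D.card - J.card)! : ℕ) : ℝ) * (1 / Chat) ^ RL.card) * ∏ i ∈ J, z i := by gcongr
    _ ≤ ((((D.card - J.card)! : ℕ) : ℝ) * ∏ i ∈ R, z i) * ∏ i ∈ J, z i := by gcongr
    _ = (((D.card - J.card)! : ℕ) : ℝ) * ∏ i ∈ D, z i := by rw [hDz]; ring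

/-- Case two: many light elements. -/
lemma case_two (D : Finset ι) (A : ι → ℝ) (Chat Astar Θ G : ℝ) (hC : 0 < Chat)
    (hG : G = 1000 * Chat) (hΘ : Θ = max G 1) (hA : ∀ i ∈ D, 1 ≤ A i)
    (hstar : ∀ I ⊆ D, (I.card ! : ℝ) * ∏ i ∈ I, (A i / Chat) ≤ Astar)
    (hL : G < 8 * ((D.filter (fun i => A i ≤ 2 * Θ)).card : ℝ)) (k : ℕ) :
    (k ! : ℝ) * ∑ J ∈ D.powersetCard k, ∏ i ∈ J, (max 2 (A i / Θ) / G) ≤ Astar / Θ := by
  have hΘ1 : 1 ≤ Θ := by rw [hΘ]; exact le_max_right _ _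
  have hΘ0 : 0 < Θ := by linarith
  have hAstar : 0 ≤ Astar := by
    have := hstar ∅ (Finset.empty_subset _)
    simp at this
    linarith
  have hA0 : 0 ≤ Astar / Θ := by positivity
  by_cases hk : k ≤ D.card
  · have hterm : ∀ J ∈ D.powersetCard k, (D.card.descFactorial k : ℝ) * ∏ i ∈ J, (max 2 (A i / Θ) / G)
        ≤ Astar / Θ := by
      intro J hJ
      obtain ⟨hJD, hJk⟩ := Finset.mem_powersetCard.1 hJ
      have h1 := light_term D J hJD A Chat Θ G hC hG hΘ hA hL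
      rw [hJk] at h1
      have h2 := hstar D (Finset.Subset.refl _)
      have h3 : (((D.card - k)! : ℕ) : ℝ) * (D.card.descFactorial k : ℝ) = (D.card ! : ℝ) := by
        exact_mod_cast Nat.factorial_mul_descFactorial hk
      rw [le_div_iff₀ hΘ0]
      calc (D.card.descFactorial k : ℝ) * (∏ i ∈ J, (max 2 (A i / Θ) / G)) * Θ
          = (D.card.descFactorial k : ℝ) * ((∏ i ∈ J, (max 2 (A i / Θ) / G)) * Θ) := by ring
        _ ≤ (D.card.descFactorial k : ℝ) * ((((D.card - k)! : ℕ) : ℝ) * ∏ i ∈ D, (A i / Chat)) := by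
            gcongr
        _ = (((D.card - k)! : ℕ) : ℝ) * (D.card.descFactorial k : ℝ) * ∏ i ∈ D, (A i / Chat) := by ring
        _ = (D.card ! : ℝ) * ∏ i ∈ D, (A i / Chat) := by rw [h3]
        _ ≤ Astar := h2
    have hsum := Finset.sum_le_card_nsmul _ _ _ hterm
    rw [← Finset.mul_sum, Finset.card_powersetCard, nsmul_eq_mul,
      Nat.descFactorial_eq_factorial_mul_choose] at hsum
    push_cast at hsum
    have hch : (0 : ℝ) < (D.card.choose k : ℝ) := by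
      exact_mod_cast Nat.choose_pos hk
    have : (D.card.choose k : ℝ) * ((k ! : ℝ) * ∑ J ∈ D.powersetCard k, ∏ i ∈ J, (max 2 (A i / Θ) / G))
        ≤ (D.card.choose k : ℝ) * (Astar / Θ) := by
      calc _ = (k ! : ℝ) * (D.card.choose k : ℝ) * ∑ J ∈ D.powersetCard k, ∏ i ∈ J, (max 2 (A i / Θ) / G) := by ring
        _ ≤ _ := hsum
    exact le_of_mul_le_mul_left this hch
  · rw [Finset.powersetCard_eq_empty.2 (by omega)]
    simpa using hA0

/-- The main inequality (I). -/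
theorem ineq_main (D : Finset ι) (A : ι → ℝ) (Chat Astar : ℝ) (hC : 0 < Chat)
    (hA : ∀ i ∈ D, 1 ≤ A i)
    (hstar : ∀ I ⊆ D, (I.card ! : ℝ) * ∏ i ∈ I, (A i / Chat) ≤ Astar) (k : ℕ) :
    (k ! : ℝ) * ∑ J ∈ D.powersetCard k, ∏ i ∈ J, max 2 (A i / max (1000 * Chat) 1)
      ≤ (1000 * Chat) ^ k * max 2 (Astar / max (1000 * Chat) 1) := by
  classical
  set G := 1000 * Chat with hG
  set Θ := max G 1 with hΘ
  have hGpos : 0 < G := by rw [hG]; positivity
  have hΘ1 : 1 ≤ Θ := by rw [hΘ]; exact le_max_right _ _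
  have hΘG : G ≤ Θ := by rw [hΘ]; exact le_max_left _ _
  have hΘ0 : 0 < Θ := by linarith
  have hreduce : (k ! : ℝ) * ∑ J ∈ D.powersetCard k, ∏ i ∈ J, max 2 (A i / Θ)
      = G ^ k * ((k ! : ℝ) * ∑ J ∈ D.powersetCard k, ∏ i ∈ J, (max 2 (A i / Θ) / G)) := by
    have hh : ∑ J ∈ D.powersetCard k, ∏ i ∈ J, max 2 (A i / Θ)
        = G ^ k * ∑ J ∈ D.powersetCard k, ∏ i ∈ J, (max 2 (A i / Θ) / G) := by
      rw [Finset.mul_sum]
      apply Finset.sum_congr rfl
      intro J hJ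
      rw [Finset.prod_div_distrib, Finset.prod_const, (Finset.mem_powersetCard.1 hJ).2]
      field_simp
    rw [hh]; ring
  rw [hreduce]
  have hAstar : 0 ≤ Astar := by
    have := hstar ∅ (Finset.empty_subset _)
    simp at this
    linarith
  have hx : 0 ≤ Astar / Θ := by positivity
  apply mul_le_mul_of_nonneg_left _ (by positivity)
  by_cases hL : G < 8 * ((D.filter (fun i => A i ≤ 2 * Θ)).card : ℝ)
  · exact le_trans (case_two D A Chat Astar Θ G hC hG hΘ hA hstar hL k) (le_max_right _ _)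
  · rw [not_lt] at hL
    set Q := D.filter (fun i => ¬ A i ≤ 2 * Θ) with hQ
    have hQD : Q ⊆ D := Finset.filter_subset _ _
    have hDQ : D \ Q = D.filter (fun i => A i ≤ 2 * Θ) := by
      ext i
      simp only [hQ, Finset.mem_sdiff, Finset.mem_filter, not_and, not_not]
      constructor
      · rintro ⟨h1, h2⟩; exact ⟨h1, h2 h1⟩
      · rintro ⟨h1, h2⟩; exact ⟨h1, fun _ => h2⟩
    have hy : ∀ i ∈ D, 0 ≤ max 2 (A i / Θ) / G := fun i _ => by
      have : 0 ≤ max 2 (A i / Θ) := le_trans (by norm_num) (le_max_left _ _)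
      positivity
    have hya : ∀ i ∈ D \ Q, max 2 (A i / Θ) / G = 2 / G := by
      intro i hi
      rw [hDQ] at hi
      have hiP := (Finset.mem_filter.1 hi).2
      have hmax : max 2 (A i / Θ) = 2 := by
        apply max_eq_left
        rw [div_le_iff₀ hΘ0]; exact hiP
      rw [hmax]
    have h1 := split_sum D Q hQD (fun i => max 2 (A i / Θ) / G) hy G hGpos
      (by rw [hDQ]; exact hL) hya k
    have hz : ∀ i ∈ Q, max 2 (A i / Θ) / G = (A i / Chat) / (1000 * Θ) := by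
      intro i hi
      have hiP := (Finset.mem_filter.1 hi).2
      have hmax : max 2 (A i / Θ) = A i / Θ := by
        apply max_eq_right
        rw [le_div_iff₀ hΘ0]
        linarith
      rw [hmax, hG]
      field_simp
    have h2 : ∑ J₁ ∈ Q.powerset, (2 ^ J₁.card * (J₁.card ! : ℝ)) * ∏ i ∈ J₁, (max 2 (A i / Θ) / G)
        = ∑ J₁ ∈ Q.powerset, (2 ^ J₁.card * (J₁.card ! : ℝ)) * ∏ i ∈ J₁, ((A i / Chat) / (1000 * Θ)) := by
      apply Finset.sum_congr rfl
      intro J₁ hJ₁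
      congr 1
      apply Finset.prod_congr rfl
      intro i hi
      exact hz i (Finset.mem_powerset.1 hJ₁ hi)
    have h3 := heavy_sum Q (fun i => A i / Chat) Θ hΘ1 (by
      intro i hi
      have hiP := (Finset.mem_filter.1 hi).2
      rw [le_div_iff₀ hC]
      rw [hG] at hΘG
      nlinarith)
    have hV : ((Q.card ! : ℝ) * ∏ i ∈ Q, (A i / Chat)) / Θ ≤ Astar / Θ := by
      gcongr
      exact hstar Q hQD
    have h4 : (k ! : ℝ) * ∑ J ∈ D.powersetCard k, ∏ i ∈ J, (max 2 (A i / Θ) / G)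
        ≤ 1 + (1 / 250) * (Astar / Θ) := by
      calc _ ≤ _ := h1
        _ = _ := h2
        _ ≤ _ := h3
        _ ≤ _ := by gcongr
    refine le_trans h4 ?_
    rcases le_total (Astar / Θ) 2 with h | h
    · exact le_trans (by linarith) (le_max_left _ _)
    · exact le_trans (by linarith) (le_max_right _ _)

end Light

end Vale.Agent.Lib.P064F
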