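import Vale.Agent.Lib.P064F.Rooted
import Vale.Agent.Lib.P064F.Ineq

open Finset
open scoped Nat BigOperators

namespace Vale.Agent.Lib.P064F

section SumInj

variable {K V : Type*} [Fintype K] [DecidableEq K] [Fintype V] [DecidableEq V]

/-- Sums over injective maps into a finset in terms of subsets. -/
lemma sum_inj_le (D : Finset V) (f : V → ℝ) (hf : ∀ i, 0 ≤ f i) :
    ∑ g ∈ (univ : Finset (K → V)).filter (fun g => Function.Injective g ∧ ∀ k, g k ∈ D),
        ∏ k, f (g k)
      ≤ ((Fintype.card K)! : ℝ) * ∑ J ∈ D.powersetCard (Fintype.card K), ∏ i ∈ J, f i := by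
  classical
  set Dom := (univ : Finset (K → V)).filter (fun g => Function.Injective g ∧ ∀ k, g k ∈ D) with hDom
  have hmaps : ∀ g ∈ Dom, (univ : Finset K).image g ∈ D.powersetCard (Fintype.card K) := by
    intro g hg
    obtain ⟨_, hinj, hD⟩ := Finset.mem_filter.1 hg
    refine Finset.mem_powersetCard.2 ⟨?_, ?_⟩
    · intro i hi
      obtain ⟨k, _, rfl⟩ := Finset.mem_image.1 hi
      exact hD k
    · rw [Finset.card_image_of_injective _ hinj, Finset.card_univ]
  rw [← Finset.sum_fiberwise_of_maps_to hmaps, Finset.mul_sum]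
  apply Finset.sum_le_sum
  intro J hJ
  have hJcard := (Finset.mem_powersetCard.1 hJ).2
  have hterm : ∀ g ∈ Dom.filter (fun g => (univ : Finset K).image g = J),
      ∏ k, f (g k) = ∏ i ∈ J, f i := by
    intro g hg
    obtain ⟨hg1, hg2⟩ := Finset.mem_filter.1 hg
    obtain ⟨_, hinj, _⟩ := Finset.mem_filter.1 hg1
    rw [← hg2, Finset.prod_image (fun a _ b _ h => hinj h)]
  rw [Finset.sum_congr rfl hterm, Finset.sum_const, nsmul_eq_mul]
  have hprod : 0 ≤ ∏ i ∈ J, f i := Finset.prod_nonneg fun i _ => hf i
  apply mul_le_mul_of_nonneg_right _ hprod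
  have hcard : (Dom.filter (fun g => (univ : Finset K).image g = J)).card ≤ (Fintype.card K)! := by
    have h1 : Dom.filter (fun g => (univ : Finset K).image g = J)
        ⊆ (univ : Finset (K ↪ {x // x ∈ J})).image (fun e k => (e k).1) := by
      intro g hg
      obtain ⟨hg1, hg2⟩ := Finset.mem_filter.1 hg
      obtain ⟨_, hinj, _⟩ := Finset.mem_filter.1 hg1
      have hmem : ∀ k, g k ∈ J := fun k => by
        rw [← hg2]; exact Finset.mem_image_of_mem _ (mem_univ k)
      refine Finset.mem_image.2 ⟨⟨fun k => ⟨g k, hmem k⟩, ?_⟩, mem_univ _, rfl⟩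
      intro a b hab
      exact hinj (Subtype.ext_iff.1 hab)
    have h2 := Finset.card_le_card h1
    have h3 := Finset.card_image_le (s := (univ : Finset (K ↪ {x // x ∈ J})))
      (f := fun e k => (e k).1)
    have h4 : (univ : Finset (K ↪ {x // x ∈ J})).card = (Fintype.card K)! := by
      rw [Finset.card_univ, Fintype.card_embedding_eq, Fintype.card_coe, hJcard,
        Nat.descFactorial_self]
    omega
  exact_mod_cast hcard

end SumInj

section DP

variable {M : ℕ} {V : Type*}

/-- Value of a shape. -/
noncomputable def val (M h : ℕ) (Chat : ℝ) (s : Shape M h) : ℝ :=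
  (wt M h s : ℝ) / Chat ^ (edges M h s)

lemma val_leaf (M h : ℕ) (Chat : ℝ) : val M h Chat (Shape.leaf M h) = 1 := by
  simp [val, leaf_wt, leaf_edges]

variable (par : V → V) (d : V → ℕ) (ch : V → V → Prop) (Chat : ℝ)

/-- Existence of a copy. -/
def Rec (h : ℕ) (s : Shape M h) (w : V) : Prop := ∃ β, Rep par d ch h s β w

lemma exists_best (h : ℕ) (w : V) : ∃ s : Shape M h, Rec par d ch h s w ∧
    ∀ s', Rec par d ch h s' w → val M h Chat s' ≤ val M h Chat s := by
  classical
  obtain ⟨s, hs, hmax⟩ := Finset.exists_max_image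
    ((univ : Finset (Shape M h)).filter (fun s => Rec par d ch h s w)) (val M h Chat)
    ⟨Shape.leaf M h, Finset.mem_filter.2 ⟨mem_univ _, ⟨_, leaf_rep par d ch M h w⟩⟩⟩
  exact ⟨s, (Finset.mem_filter.1 hs).2, fun s' hs' => hmax s' (Finset.mem_filter.2 ⟨mem_univ _, hs'⟩)⟩

/-- The best shape. -/
noncomputable def best (h : ℕ) (w : V) : Shape M h :=
  Classical.choose (exists_best (M := M) par d ch Chat h w)

lemma best_rec (h : ℕ) (w : V) : Rec par d ch h (best (M := M) par d ch Chat h w) w :=
  (Classical.choose_spec (exists_best (M := M) par d ch Chat h w)).1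

lemma best_max (h : ℕ) (w : V) (s' : Shape M h) (hs : Rec par d ch h s' w) :
    val M h Chat s' ≤ val M h Chat (best (M := M) par d ch Chat h w) :=
  (Classical.choose_spec (exists_best (M := M) par d ch Chat h w)).2 s' hs

/-- The value function `A`. -/
noncomputable def AA (M : ℕ) (h : ℕ) (w : V) : ℝ :=
  val M h Chat (best (M := M) par d ch Chat h w)

lemma one_le_AA (h : ℕ) (w : V) : 1 ≤ AA par d ch Chat M h w := by
  have := best_max (M := M) par d ch Chat h w (Shape.leaf M h) ⟨_, leaf_rep par d ch M h w⟩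
  rwa [val_leaf] at this

lemma AA_step (hC : 0 < Chat) (hch : ∀ x y, ch x y → par y = x ∧ d y = d x + 1) (h : ℕ) (w : V)
    (I : Finset V) (hI : ∀ i ∈ I, ch w i) (hcard : I.card ≤ M) :
    (I.card ! : ℝ) * ∏ i ∈ I, (AA par d ch Chat M h i / Chat) ≤ AA par d ch Chat M (h + 1) w := by
  classical
  have hrec := fun i => best_rec (M := M) par d ch Chat h i
  choose B hB using hrec
  obtain ⟨s, β, hβ, hs, _⟩ := builder par d ch hch w I hI hcard
    (fun i => best (M := M) par d ch Chat h i) B (fun i _ => hB i)
  have h1 := best_max (M := M) par d ch Chat (h + 1) w s ⟨β, hβ⟩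
  refine le_trans (le_of_eq ?_) h1
  simp only [val, AA]
  rw [built_wt I _ s hs, built_edges I _ s hs]
  push_cast
  rw [← Finset.prod_pow_eq_pow_sum, mul_div_assoc, ← Finset.prod_div_distrib]
  congr 1
  apply Finset.prod_congr rfl
  intro i _
  rw [pow_add, pow_one]
  field_simp

end DP


section Claim1

variable {M : ℕ} {V : Type*} [Fintype V] [DecidableEq V]

noncomputable instance nodeFintype (M h : ℕ) (s : Shape M h) : Fintype (Node M h s) :=
  Fintype.ofFinite _

noncomputable instance nodeDecEq (M h : ℕ) (s : Shape M h) : DecidableEq (Node M h s) :=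
  Classical.decEq _

variable (par : V → V) (d : V → ℕ) (ch : V → V → Prop) (Chat : ℝ)

open Classical in
/-- Downward injective maps of the tree of shape `s` with root at `w`. -/
noncomputable def downMaps (h : ℕ) (s : Shape M h) (w : V) : Finset (Node M h s → V) :=
  (univ : Finset (Node M h s → V)).filter (fun ff => ff (Node.root M h s) = w ∧
    Function.Injective ff ∧ ∀ u v, Node.parent M h s u = some v → ch (ff v) (ff u))

open Classical in
/-- Children of `w`. -/
noncomputable def chSet (w : V) : Finset V := (univ : Finset V).filter (fun i => ch w i)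

open Classical in
lemma down_card_le (h : ℕ) (s : Shape M (h + 1)) (w : V) :
    (downMaps ch (h + 1) s w).card ≤
      ∑ g ∈ (univ : Finset ((Σ c : Shape M h, Fin (s c)) → V)).filter
          (fun g => Function.Injective g ∧ ∀ k, g k ∈ chSet ch w),
        ∏ k : (Σ c : Shape M h, Fin (s c)), (downMaps ch h k.1 (g k)).card := by
  set Dom := (univ : Finset ((Σ c : Shape M h, Fin (s c)) → V)).filter
          (fun g => Function.Injective g ∧ ∀ k, g k ∈ chSet ch w) with hDom
  let T := Dom.sigma (fun g => Fintype.piFinset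
    (fun k : (Σ c : Shape M h, Fin (s c)) => downMaps ch h k.1 (g k)))
  have hT : T.card = ∑ g ∈ Dom, ∏ k : (Σ c : Shape M h, Fin (s c)),
      (downMaps ch h k.1 (g k)).card := by
    simp only [T, Finset.card_sigma, Fintype.card_piFinset]
  rw [← hT]
  let kid : ∀ (c : Shape M h) (i : Fin (s c)) (u : Node M h c), Node M (h + 1) s :=
    fun c i u => some ⟨c, i, u⟩
  apply Finset.card_le_card_of_injOn
    (fun ff => ⟨fun k => ff (kid k.1 k.2 (Node.root M h k.1)), fun k u => ff (kid k.1 k.2 u)⟩)
  · intro ff hff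
    obtain ⟨_, h1, h2, h3⟩ := Finset.mem_filter.1 (Finset.mem_coe.1 hff)
    apply Finset.mem_coe.2
    refine Finset.mem_sigma.2 ⟨?_, ?_⟩
    · refine Finset.mem_filter.2 ⟨mem_univ _, ?_, ?_⟩
      · intro k k' he
        have := h2 he
        obtain ⟨c, i⟩ := k
        obtain ⟨c', i'⟩ := k'
        have h5 := Option.some.inj this
        obtain ⟨rfl, h6⟩ := Sigma.mk.inj_iff.1 h5
        have h7 := eq_of_heq h6
        exact congrArg (Sigma.mk c) (Prod.ext_iff.1 h7).1
      · intro k
        refine Finset.mem_filter.2 ⟨mem_univ _, ?_⟩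
        have hp : Node.parent M (h + 1) s (kid k.1 k.2 (Node.root M h k.1)) = some (Node.root M (h + 1) s) := by
          show Node.parent M (h + 1) s (some ⟨k.1, k.2, Node.root M h k.1⟩) = _
          rw [Node.parent_some, Node.parent_root]
          rfl
        have := h3 _ _ hp
        rwa [h1] at this
    · refine Fintype.mem_piFinset.2 ?_
      intro k
      refine Finset.mem_filter.2 ⟨mem_univ _, rfl, ?_, ?_⟩
      · intro u u' he
        have := h2 he
        have h5 := Option.some.inj this
        obtain ⟨_, h6⟩ := Sigma.mk.inj_iff.1 h5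
        have h7 := eq_of_heq h6
        exact (Prod.ext_iff.1 h7).2
      · intro u v hu
        have hp : Node.parent M (h + 1) s (kid k.1 k.2 u) = some (kid k.1 k.2 v) := by
          show Node.parent M (h + 1) s (some ⟨k.1, k.2, u⟩) = _
          rw [Node.parent_some, hu]
          rfl
        exact h3 _ _ hp
  · intro ff hff ff' hff' he
    obtain ⟨_, h1, _, _⟩ := Finset.mem_filter.1 (Finset.mem_coe.1 hff)
    obtain ⟨_, h1', _, _⟩ := Finset.mem_filter.1 (Finset.mem_coe.1 hff')
    simp only at he
    obtain ⟨_, h2⟩ := Sigma.mk.inj_iff.1 he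
    have h3 := eq_of_heq h2
    funext a
    rcases a with _ | ⟨c, i, u⟩
    · exact h1.trans h1'.symm
    · exact congrFun (congrFun h3 ⟨c, i⟩) u

lemma edges_kid (h : ℕ) (s : Shape M (h + 1)) :
    edges M (h + 1) s = ∑ k : (Σ c : Shape M h, Fin (s c)), edges M h k.1
      + Fintype.card (Σ c : Shape M h, Fin (s c)) := by
  simp only [edges]
  rw [Fintype.card_sigma, Fintype.sum_sigma, ← Finset.sum_add_distrib]
  apply Finset.sum_congr rfl
  intro c _
  simp only [Finset.sum_const, Finset.card_univ, Fintype.card_fin, smul_eq_mul]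
  ring

theorem claim1 (hC : 0 < Chat) (hch : ∀ x y, ch x y → par y = x ∧ d y = d x + 1)
    (hcardM : Fintype.card V ≤ M) : ∀ (h : ℕ) (s : Shape M h) (w : V),
    ((downMaps ch h s w).card : ℝ) ≤
      (1000 * Chat) ^ (edges M h s) * max 2 (AA par d ch Chat M h w / max (1000 * Chat) 1) := by
  classical
  intro h
  induction h with
  | zero =>
    intro s w
    have h1 : (downMaps ch 0 s w).card ≤ 1 := by
      apply Finset.card_le_one.2
      intro ff hff ff' hff'
      obtain ⟨_, h1, _, _⟩ := Finset.mem_filter.1 hff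
      obtain ⟨_, h1', _, _⟩ := Finset.mem_filter.1 hff'
      funext u
      exact h1.trans h1'.symm
    have h2 : ((downMaps ch 0 s w).card : ℝ) ≤ 1 := by exact_mod_cast h1
    have h3 : (2 : ℝ) ≤ max 2 (AA par d ch Chat M 0 w / max (1000 * Chat) 1) := le_max_left _ _
    simp only [edges, pow_zero, one_mul]
    linarith
  | succ h ih =>
    intro s w
    set Θ := max (1000 * Chat) 1 with hΘ
    set ghat : V → ℝ := fun i => max 2 (AA par d ch Chat M h i / Θ) with hghat
    have hghat0 : ∀ i, 0 ≤ ghat i := fun i => le_trans (by norm_num) (le_max_left _ _)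
    set G := 1000 * Chat with hG
    have hGpos : 0 < G := by rw [hG]; positivity
    set Sum := ∑ k : (Σ c : Shape M h, Fin (s c)), edges M h k.1 with hSum
    have h1 : ((downMaps ch (h + 1) s w).card : ℝ) ≤
        ∑ g ∈ (univ : Finset ((Σ c : Shape M h, Fin (s c)) → V)).filter
          (fun g => Function.Injective g ∧ ∀ k, g k ∈ chSet ch w),
        (G ^ Sum * ∏ k : (Σ c : Shape M h, Fin (s c)), ghat (g k)) := by
      have := down_card_le ch h s w
      have h1' : ((downMaps ch (h + 1) s w).card : ℝ) ≤
          ∑ g ∈ (univ : Finset ((Σ c : Shape M h, Fin (s c)) → V)).filter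
            (fun g => Function.Injective g ∧ ∀ k, g k ∈ chSet ch w),
          ∏ k : (Σ c : Shape M h, Fin (s c)), ((downMaps ch h k.1 (g k)).card : ℝ) := by
        exact_mod_cast this
      refine le_trans h1' (Finset.sum_le_sum ?_)
      intro g _
      rw [hSum, ← Finset.prod_pow_eq_pow_sum, ← Finset.prod_mul_distrib]
      apply Finset.prod_le_prod
      · intros; positivity
      · intro k _
        exact ih k.1 (g k)
    have h2 := sum_inj_le (K := (Σ c : Shape M h, Fin (s c))) (chSet ch w) ghat hghat0
    have h3 := ineq_main (chSet ch w) (AA par d ch Chat M h) Chat (AA par d ch Chat M (h + 1) w) hC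
      (fun i _ => one_le_AA par d ch Chat h i)
      (fun I hI => AA_step par d ch Chat hC hch h w I
        (fun i hi => (Finset.mem_filter.1 (hI hi)).2)
        (le_trans (Finset.card_le_univ I) hcardM))
      (Fintype.card (Σ c : Shape M h, Fin (s c)))
    rw [edges_kid, pow_add]
    calc ((downMaps ch (h + 1) s w).card : ℝ)
        ≤ _ := h1
      _ = G ^ Sum * ∑ g ∈ (univ : Finset ((Σ c : Shape M h, Fin (s c)) → V)).filter
          (fun g => Function.Injective g ∧ ∀ k, g k ∈ chSet ch w),
          ∏ k : (Σ c : Shape M h, Fin (s c)), ghat (g k) := by rw [Finset.mul_sum]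
      _ ≤ G ^ Sum * (((Fintype.card (Σ c : Shape M h, Fin (s c)))! : ℝ) *
          ∑ J ∈ (chSet ch w).powersetCard (Fintype.card (Σ c : Shape M h, Fin (s c))),
            ∏ i ∈ J, ghat i) := by gcongr
      _ ≤ G ^ Sum * (G ^ (Fintype.card (Σ c : Shape M h, Fin (s c)))
          * max 2 (AA par d ch Chat M (h + 1) w / Θ)) := by
          gcongr
      _ = _ := by ring

end Claim1

end Vale.Agent.Lib.P064F
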