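import Mathlib

namespace Vale.Agent.Lib.P064F

/-- `copies G F` is the number of subgraphs of `G` isomorphic to `F`: graphs `F'` on the
same vertex set `Fin n` with `F' ≤ G` and `F' ≃g F`. -/
noncomputable def copies {n : ℕ} (G F : SimpleGraph (Fin n)) : ℕ :=
  Nat.card {F' : SimpleGraph (Fin n) // F' ≤ G ∧ Nonempty (F' ≃g F)}

/-- The number of edges. -/
noncomputable def numEdges {n : ℕ} (F : SimpleGraph (Fin n)) : ℕ := F.edgeSet.ncard

end Vale.Agent.Lib.P064F
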