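import Vale.Agent.Lib.P064F.Defs

open Finset
open scoped Nat BigOperators

namespace Vale.Agent.Lib.P064F

section PermCount

variable {n : ℕ} (F : SimpleGraph (Fin n))

open Classical in
/-- Permutations sending `F` into `G`. -/
noncomputable def Pp (G : SimpleGraph (Fin n)) : Finset (Equiv.Perm (Fin n)) :=
  (univ : Finset (Equiv.Perm (Fin n))).filter (fun σ => ∀ x y, F.Adj x y → G.Adj (σ x) (σ y))

open Classical in
/-- Stabilizer of `F`. -/
noncomputable def Stb : Finset (Equiv.Perm (Fin n)) :=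
  (univ : Finset (Equiv.Perm (Fin n))).filter (fun σ => F.comap σ.symm = F)

lemma mem_Pp (G : SimpleGraph (Fin n)) (σ : Equiv.Perm (Fin n)) :
    σ ∈ Pp F G ↔ ∀ x y, F.Adj x y → G.Adj (σ x) (σ y) := by
  classical
  unfold Pp
  rw [Finset.mem_filter]
  exact ⟨fun h => h.2, fun h => ⟨mem_univ _, h⟩⟩

lemma mem_Stb (σ : Equiv.Perm (Fin n)) : σ ∈ Stb F ↔ F.comap σ.symm = F := by
  classical
  unfold Stb
  rw [Finset.mem_filter]
  exact ⟨fun h => h.2, fun h => ⟨mem_univ _, h⟩⟩

lemma copies_mul_stb (G : SimpleGraph (Fin n)) :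
    copies G F * (Stb F).card = (Pp F G).card := by
  classical
  let Gr : Equiv.Perm (Fin n) → SimpleGraph (Fin n) := fun σ => F.comap σ.symm
  have hset : {F' : SimpleGraph (Fin n) | F' ≤ G ∧ Nonempty (F' ≃g F)}
      = ↑((Pp F G).image Gr) := by
    ext F'
    simp only [Set.mem_ofPred_eq, Finset.coe_image, Set.mem_image, Finset.mem_coe]
    constructor
    · rintro ⟨hle, ⟨τ⟩⟩
      refine ⟨τ.toEquiv.symm, (mem_Pp F G _).2 ?_, ?_⟩
      · intro x y hxy
        apply hle
        apply τ.map_adj_iff.1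
        have h1 : τ (τ.toEquiv.symm x) = x := τ.toEquiv.apply_symm_apply x
        have h2 : τ (τ.toEquiv.symm y) = y := τ.toEquiv.apply_symm_apply y
        rw [h1, h2]
        exact hxy
      · ext x y
        exact τ.map_adj_iff
    · rintro ⟨σ, hσ, rfl⟩
      refine ⟨?_, ⟨SimpleGraph.Iso.comap σ.symm F⟩⟩
      intro x y hxy
      have := (mem_Pp F G σ).1 hσ _ _ hxy
      simpa using this
  have hcop : copies G F = ((Pp F G).image Gr).card := by
    calc copies G F
        = Set.ncard {F' : SimpleGraph (Fin n) | F' ≤ G ∧ Nonempty (F' ≃g F)} :=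
          Nat.card_coe_set_eq _
      _ = _ := by rw [hset, Set.ncard_coe_finset]
  have hfib : ∀ b ∈ (Pp F G).image Gr, ((Pp F G).filter (fun σ => Gr σ = b)).card = (Stb F).card := by
    intro b hb
    obtain ⟨σ₀, hσ₀, rfl⟩ := Finset.mem_image.1 hb
    have hσ₀' := (mem_Pp F G σ₀).1 hσ₀
    have hcomp : ∀ σ : Equiv.Perm (Fin n), Gr σ = Gr σ₀ ↔ F.comap (σ.trans σ₀.symm).symm = F := by
      intro σ
      constructor
      · intro h
        ext x y
        have h2 := congrFun (congrFun (SimpleGraph.ext_iff.1 h) (σ₀ x)) (σ₀ y)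
        simp only [Gr, SimpleGraph.comap_adj, Equiv.symm_apply_apply, eq_iff_iff] at h2
        simpa using h2
      · intro h
        ext x y
        have h2 := congrFun (congrFun (SimpleGraph.ext_iff.1 h) (σ₀.symm x)) (σ₀.symm y)
        simp only [SimpleGraph.comap_adj, eq_iff_iff] at h2
        simpa [Gr] using h2
    symm
    apply Finset.card_bij (fun ρ _ => ρ.trans σ₀)
    · intro ρ hρ
      have hρ' := (mem_Stb F ρ).1 hρ
      refine Finset.mem_filter.2 ⟨(mem_Pp F G _).2 ?_, ?_⟩
      · intro x y hxy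
        apply hσ₀'
        have h2 := congrFun (congrFun (SimpleGraph.ext_iff.1 hρ') (ρ x)) (ρ y)
        simp only [SimpleGraph.comap_adj, Equiv.symm_apply_apply, eq_iff_iff] at h2
        exact h2.1 hxy
      · rw [hcomp]
        have e : (ρ.trans σ₀).trans σ₀.symm = ρ := Equiv.ext fun x => by simp
        rw [e]
        exact hρ'
    · intro ρ _ ρ' _ he
      refine Equiv.ext fun x => σ₀.injective ?_
      exact DFunLike.congr_fun he x
    · intro σ hσ
      have hσ' := (Finset.mem_filter.1 hσ).2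
      rw [hcomp] at hσ'
      refine ⟨σ.trans σ₀.symm, (mem_Stb F _).2 hσ', Equiv.ext fun x => ?_⟩
      simp
  rw [Finset.card_eq_sum_card_image Gr (Pp F G), Finset.sum_congr rfl hfib, Finset.sum_const,
    smul_eq_mul, hcop]

lemma Pp_top : (Pp F (⊤ : SimpleGraph (Fin n))).card = n ! := by
  classical
  have : Pp F (⊤ : SimpleGraph (Fin n)) = univ := by
    apply Finset.eq_univ_of_forall
    intro σ
    refine (mem_Pp F _ σ).2 ?_
    intro x y hxy
    exact (SimpleGraph.top_adj _ _).2 (fun he => hxy.ne (σ.injective he))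
  rw [this, Finset.card_univ, Fintype.card_perm, Fintype.card_fin]

lemma Stb_pos : 0 < (Stb F).card := by
  apply Finset.card_pos.2
  refine ⟨Equiv.refl _, (mem_Stb F _).2 ?_⟩
  ext x y
  rfl

/-- The ratio of the numbers of copies in terms of permutations. -/
lemma copies_ratio (H : SimpleGraph (Fin n)) :
    copies H F * n ! = copies ⊤ F * (Pp F H).card := by
  have h1 := copies_mul_stb F H
  have h2 := copies_mul_stb F (⊤ : SimpleGraph (Fin n))
  rw [Pp_top] at h2
  rw [← h1, ← h2]
  ring

lemma copies_le_top (H : SimpleGraph (Fin n)) : copies H F ≤ copies ⊤ F := by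
  unfold copies
  apply Nat.card_le_card_of_injective
    (fun x : {F' : SimpleGraph (Fin n) // F' ≤ H ∧ Nonempty (F' ≃g F)} =>
      (⟨x.1, le_top, x.2.2⟩ : {F' : SimpleGraph (Fin n) // F' ≤ ⊤ ∧ Nonempty (F' ≃g F)}))
  intro a b hab
  exact Subtype.ext (congrArg (fun z => z.1) hab)

/-- Number of permutations fixing a finset pointwise. -/
lemma card_fix (D : Finset (Fin n)) :
    ((univ : Finset (Equiv.Perm (Fin n))).filter (fun τ => ∀ x ∈ D, τ x = x)).card
      = (n - D.card)! := by
  classical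
  have h1 : Fintype.card {x : Fin n // x ∉ D} = n - D.card := by
    rw [Fintype.card_subtype_compl]
    simp
  have h2 := Fintype.card_congr (Equiv.Perm.subtypeEquivSubtypePerm (fun x : Fin n => x ∉ D))
  rw [Fintype.card_perm, h1] at h2
  rw [h2, Fintype.card_subtype]
  congr 1
  ext τ
  simp

end PermCount

end Vale.Agent.Lib.P064F
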