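import Vale.Agent.Lib.P064F.Tree
import Vale.Agent.Lib.P064F.PermCount

open Finset
open scoped Nat BigOperators

namespace Vale.Agent.Lib.P064F

/-- `n^v ≤ v^v C(n,v)` for `v ≤ n`. -/
lemma pow_le_pow_mul_choose : ∀ (v n : ℕ), v ≤ n → n ^ v ≤ v ^ v * n.choose v
  | 0, _, _ => by simp
  | 1, n, _ => by simp
  | w + 2, 0, hv => by omega
  | w + 2, m + 1, hv => by
      have hw : w + 1 ≤ m := by omega
      have ih := pow_le_pow_mul_choose (w + 1) m hw
      have h1 : (m + 1) * m.choose (w + 1) = (m + 1).choose (w + 2) * (w + 2) :=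
        Nat.add_one_mul_choose_eq m (w + 1)
      have h2 : ((w + 1) * (m + 1)) ≤ (m * (w + 2)) := by nlinarith
      have h3 : ((w + 1) * (m + 1)) ^ (w + 1) ≤ (m * (w + 2)) ^ (w + 1) :=
        Nat.pow_le_pow_left h2 _
      rw [mul_pow, mul_pow] at h3
      have hwpos : 0 < (w + 1) ^ (w + 1) := by positivity
      have h4 : (m + 1) ^ (w + 1) ≤ (w + 2) ^ (w + 1) * m.choose (w + 1) := by
        apply Nat.le_of_mul_le_mul_left _ hwpos
        calc (w + 1) ^ (w + 1) * (m + 1) ^ (w + 1) ≤ m ^ (w + 1) * (w + 2) ^ (w + 1) := h3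
          _ ≤ ((w + 1) ^ (w + 1) * m.choose (w + 1)) * (w + 2) ^ (w + 1) := by gcongr
          _ = _ := by ring
      calc (m + 1) ^ (w + 2) = (m + 1) ^ (w + 1) * (m + 1) := by ring
        _ ≤ ((w + 2) ^ (w + 1) * m.choose (w + 1)) * (m + 1) := by gcongr
        _ = (w + 2) ^ (w + 1) * ((m + 1) * m.choose (w + 1)) := by ring
        _ = (w + 2) ^ (w + 1) * ((m + 1).choose (w + 2) * (w + 2)) := by rw [h1]
        _ = _ := by ring

/-- `n^v ≤ 3^v (n)_v` for `v ≤ n`. -/
lemma pow_le_three_desc (v n : ℕ) (hv : v ≤ n) :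
    (n : ℝ) ^ v ≤ (3 : ℝ) ^ v * (n.descFactorial v : ℝ) := by
  have h1 := pow_le_pow_mul_choose v n hv
  have h2 := aux_pow_le v v
  rw [Nat.descFactorial_eq_factorial_mul_choose]
  have h3 : (n : ℝ) ^ v ≤ (v : ℝ) ^ v * (n.choose v : ℝ) := by exact_mod_cast h1
  have h4 : (0 : ℝ) ≤ (n.choose v : ℝ) := by positivity
  push_cast
  calc (n : ℝ) ^ v ≤ (v : ℝ) ^ v * (n.choose v : ℝ) := h3
    _ ≤ ((v ! : ℝ) * 3 ^ v) * (n.choose v : ℝ) := by gcongr
    _ = _ := by ring

section Forest

variable {n : ℕ} (F H : SimpleGraph (Fin n))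

noncomputable instance compFintype (c : F.ConnectedComponent) : Fintype c := Fintype.ofFinite _

noncomputable instance compsFintype : Fintype F.ConnectedComponent := Fintype.ofFinite _

noncomputable instance compsDec : DecidableEq F.ConnectedComponent := Classical.decEq _

open Classical in
/-- Non-isolated vertices. -/
noncomputable def supD : Finset (Fin n) := (univ : Finset (Fin n)).filter (fun x => ∃ y, F.Adj x y)

/-- Non-trivial components. -/
noncomputable def compNT : Finset F.ConnectedComponent :=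
  (univ : Finset F.ConnectedComponent).filter (fun c => 2 ≤ Fintype.card c)

lemma mem_supD (x : Fin n) : x ∈ supD F ↔ ∃ y, F.Adj x y := by
  classical
  unfold supD
  rw [Finset.mem_filter]
  exact ⟨fun h => h.2, fun h => ⟨mem_univ _, h⟩⟩

lemma mem_comp (c : F.ConnectedComponent) (x : Fin n) : x ∈ c ↔ F.connectedComponentMk x = c :=
  SimpleGraph.ConnectedComponent.mem_supp_iff c x

lemma card_comp (c : F.ConnectedComponent) :
    Fintype.card c = ((univ : Finset (Fin n)).filter (fun x => F.connectedComponentMk x = c)).card := by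
  classical
  rw [Fintype.card_subtype]
  congr 1

lemma mem_supD_iff (x : Fin n) : x ∈ supD F ↔ F.connectedComponentMk x ∈ compNT F := by
  classical
  rw [mem_supD]
  unfold compNT
  rw [Finset.mem_filter]
  constructor
  · rintro ⟨y, hy⟩
    refine ⟨mem_univ _, ?_⟩
    have hxc : x ∈ F.connectedComponentMk x := (mem_comp F _ x).2 rfl
    have hyc : y ∈ F.connectedComponentMk x :=
      (mem_comp F _ y).2 (SimpleGraph.ConnectedComponent.connectedComponentMk_eq_of_adj hy).symm
    have hne : (⟨x, hxc⟩ : F.connectedComponentMk x) ≠ ⟨y, hyc⟩ := by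
      intro he
      exact hy.ne (congrArg Subtype.val he)
    exact Fintype.one_lt_card_iff.2 ⟨_, _, hne⟩
  · rintro ⟨_, hc⟩
    have hxc : x ∈ F.connectedComponentMk x := (mem_comp F _ x).2 rfl
    obtain ⟨⟨y, hy⟩, hne⟩ := Fintype.exists_ne_of_one_lt_card (by omega : 1 < _) (⟨x, hxc⟩ : F.connectedComponentMk x)
    have hxy : x ≠ y := fun he => hne (Subtype.ext he.symm)
    have hreach : F.Reachable x y := SimpleGraph.ConnectedComponent.exact ((mem_comp F _ y).1 hy).symm
    obtain ⟨p⟩ := hreach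
    cases p with
    | nil => exact absurd rfl hxy
    | cons h _ => exact ⟨_, h⟩

lemma card_supD : (supD F).card = ∑ c ∈ compNT F, Fintype.card c := by
  classical
  rw [Finset.card_eq_sum_card_fiberwise (f := F.connectedComponentMk) (t := compNT F)
    (fun x hx => (mem_supD_iff F x).1 hx)]
  apply Finset.sum_congr rfl
  intro c hc
  rw [card_comp]
  congr 1
  ext x
  simp only [Finset.mem_filter, mem_univ, true_and]
  constructor
  · intro h; exact h.2
  · intro h
    refine ⟨(mem_supD_iff F x).2 ?_, h⟩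
    rw [h]; exact hc

lemma numEdges_le (hF : F.IsAcyclic) : numEdges F ≤ ∑ c ∈ compNT F, (Fintype.card c - 1) := by
  classical
  let rep : F.ConnectedComponent → Fin n := fun c => Classical.choose c.exists_rep
  have hrep : ∀ c, F.connectedComponentMk (rep c) = c := fun c => Classical.choose_spec c.exists_rep
  obtain ⟨parF, dF, hlay, _, _, _, hz⟩ := exists_layering F hF (fun x => rep (F.connectedComponentMk x))
    (fun x => SimpleGraph.ConnectedComponent.exact (hrep _))
    (fun x y hxy => by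
      show rep _ = rep _
      rw [SimpleGraph.ConnectedComponent.connectedComponentMk_eq_of_adj hxy])
  have hdrep : ∀ c, dF (rep c) = 0 := fun c => hz _ (by simp only [hrep])
  set A := (supD F).filter (fun y => dF y ≠ 0) with hA
  let f : Fin n → Sym2 (Fin n) := fun y => s(parF y, y)
  have hsub : F.edgeSet ⊆ f '' (↑A : Set (Fin n)) := by
    intro e he
    induction e using Sym2.ind with
    | _ x y =>
      have hxy : F.Adj x y := he
      rcases hlay x y hxy with h | h
      · refine ⟨y, Finset.mem_coe.2 (Finset.mem_filter.2 ⟨(mem_supD F y).2 ⟨x, hxy.symm⟩, ?_⟩), ?_⟩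
        · have := h.2.2; omega
        · simp only [f, h.2.1]
      · refine ⟨x, Finset.mem_coe.2 (Finset.mem_filter.2 ⟨(mem_supD F x).2 ⟨y, hxy⟩, ?_⟩), ?_⟩
        · have := h.2.2; omega
        · simp only [f, h.2.1]
          exact Sym2.eq_swap
  have h1 : numEdges F ≤ A.card := by
    unfold numEdges
    calc F.edgeSet.ncard ≤ (f '' (↑A : Set (Fin n))).ncard :=
          Set.ncard_le_ncard hsub (Set.toFinite _)
      _ ≤ (↑A : Set (Fin n)).ncard := Set.ncard_image_le (Set.toFinite _)
      _ = A.card := Set.ncard_coe_finset _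
  have h2 : A.card = ∑ c ∈ compNT F, (A.filter (fun y => F.connectedComponentMk y = c)).card :=
    Finset.card_eq_sum_card_fiberwise (f := F.connectedComponentMk) (t := compNT F)
      (fun x hx => (mem_supD_iff F x).1 (Finset.mem_filter.1 hx).1)
  rw [h2] at h1
  refine le_trans h1 (Finset.sum_le_sum ?_)
  intro c _
  rw [card_comp, ← Finset.card_erase_of_mem (a := rep c) (Finset.mem_filter.2 ⟨mem_univ _, hrep c⟩)]
  apply Finset.card_le_card
  intro y hy
  obtain ⟨hyA, hyc⟩ := Finset.mem_filter.1 hy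
  refine Finset.mem_erase.2 ⟨?_, Finset.mem_filter.2 ⟨mem_univ _, hyc⟩⟩
  rintro rfl
  exact (Finset.mem_filter.1 hyA).2 (hdrep c)

/-- The permutation count factorizes over the non-trivial components. -/
lemma Pp_card_le : (Pp F H).card ≤ (n - (supD F).card)! *
    ∏ i : {c // c ∈ compNT F}, (injHoms H i.1.toSimpleGraph).card := by
  classical
  let ρ : Equiv.Perm (Fin n) → (∀ i : {c // c ∈ compNT F}, (i.1 → Fin n)) := fun σ i a => σ a.1
  have hmaps : ∀ σ ∈ Pp F H, ρ σ ∈ Fintype.piFinset
      (fun i : {c // c ∈ compNT F} => injHoms H i.1.toSimpleGraph) := by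
    intro σ hσ
    refine Fintype.mem_piFinset.2 fun i => ?_
    refine Finset.mem_filter.2 ⟨mem_univ _, ?_, ?_⟩
    · intro a b he
      exact Subtype.ext (σ.injective he)
    · intro a b hab
      exact (mem_Pp F H σ).1 hσ _ _ hab
  have h1 := Finset.card_le_mul_card_image_of_maps_to hmaps ((n - (supD F).card)!) ?_
  · rwa [Fintype.card_piFinset] at h1
  · intro b _
    by_cases hne : ((Pp F H).filter (fun σ => ρ σ = b)).Nonempty
    · obtain ⟨σ₀, hσ₀⟩ := hne
      have hb : ρ σ₀ = b := (Finset.mem_filter.1 hσ₀).2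
      rw [← card_fix (supD F)]
      apply Finset.card_le_card_of_injOn (fun σ => σ.trans σ₀.symm)
      · intro σ hσ
        have hσ' : ρ σ = b := (Finset.mem_filter.1 (Finset.mem_coe.1 hσ)).2
        apply Finset.mem_coe.2
        refine Finset.mem_filter.2 ⟨mem_univ _, ?_⟩
        intro x hx
        have hi := (mem_supD_iff F x).1 hx
        have hxc : x ∈ F.connectedComponentMk x := (mem_comp F _ x).2 rfl
        have h2 := congrFun (congrFun (hσ'.trans hb.symm) ⟨_, hi⟩) ⟨x, hxc⟩
        have h3 : σ x = σ₀ x := h2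
        simp [h3]
      · intro σ _ σ' _ he
        refine Equiv.ext fun x => σ₀.symm.injective ?_
        exact DFunLike.congr_fun he x
    · rw [Finset.not_nonempty_iff_eq_empty.1 hne]
      simp

/-- The numerical part of the main theorem. -/
lemma Pp_bound (hF : F.IsAcyclic) (q L₁ : ℝ) (hq0 : 0 < q) (hL₁ : 0 ≤ L₁)
    (htree : ∀ c ∈ compNT F, ((injHoms H c.toSimpleGraph).card : ℝ)
      ≤ (n : ℝ) ^ Fintype.card c * (L₁ * q) ^ (Fintype.card c - 1))
    (hx : 9 * L₁ * q < 1) :
    ((Pp F H).card : ℝ) ≤ (n ! : ℝ) * (9 * L₁ * q) ^ numEdges F := by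
  classical
  set v := (supD F).card with hv
  set e' := ∑ c ∈ compNT F, (Fintype.card c - 1) with he'
  have hvle : v ≤ n := by
    have := Finset.card_le_univ (supD F)
    simpa using this
  have hv2 : v ≤ 2 * e' := by
    rw [hv, card_supD, he', Finset.mul_sum]
    apply Finset.sum_le_sum
    intro c hc
    have := (Finset.mem_filter.1 hc).2
    omega
  have hvsum : v = ∑ c ∈ compNT F, Fintype.card c := card_supD F
  have h1 : ((Pp F H).card : ℝ) ≤ ((n - v)! : ℝ) *
      ∏ i : {c // c ∈ compNT F}, ((injHoms H i.1.toSimpleGraph).card : ℝ) := by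
    exact_mod_cast Pp_card_le F H
  have h2 : ∏ i : {c // c ∈ compNT F}, ((injHoms H i.1.toSimpleGraph).card : ℝ)
      ≤ (n : ℝ) ^ v * (L₁ * q) ^ e' := by
    calc ∏ i : {c // c ∈ compNT F}, ((injHoms H i.1.toSimpleGraph).card : ℝ)
        ≤ ∏ i : {c // c ∈ compNT F}, ((n : ℝ) ^ Fintype.card i.1 * (L₁ * q) ^ (Fintype.card i.1 - 1)) := by
          apply Finset.prod_le_prod
          · intros; positivity
          · intro i _
            exact htree i.1 i.2
      _ = ∏ c ∈ compNT F, ((n : ℝ) ^ Fintype.card c * (L₁ * q) ^ (Fintype.card c - 1)) :=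
          Finset.prod_coe_sort (compNT F) (fun c => (n : ℝ) ^ Fintype.card c * (L₁ * q) ^ (Fintype.card c - 1))
      _ = _ := by
          rw [Finset.prod_mul_distrib, Finset.prod_pow_eq_pow_sum, Finset.prod_pow_eq_pow_sum, ← hvsum]
  have h3 := pow_le_three_desc v n hvle
  have h4 : (3 : ℝ) ^ v ≤ 9 ^ e' := by
    calc (3 : ℝ) ^ v ≤ 3 ^ (2 * e') := pow_le_pow_right₀ (by norm_num) hv2
      _ = 9 ^ e' := by rw [pow_mul]; norm_num
  have h5 : (((n - v)! : ℕ) : ℝ) * (n.descFactorial v : ℝ) = (n ! : ℝ) := by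
    exact_mod_cast Nat.factorial_mul_descFactorial hvle
  have hLq : 0 ≤ L₁ * q := by positivity
  have h6 : (n : ℝ) ^ v * (L₁ * q) ^ e' ≤ (n.descFactorial v : ℝ) * (9 * L₁ * q) ^ e' := by
    have : (9 * L₁ * q) ^ e' = 9 ^ e' * (L₁ * q) ^ e' := by rw [← mul_pow]; ring_nf
    rw [this]
    calc (n : ℝ) ^ v * (L₁ * q) ^ e' ≤ ((3 : ℝ) ^ v * (n.descFactorial v : ℝ)) * (L₁ * q) ^ e' := by gcongr
      _ ≤ ((9 : ℝ) ^ e' * (n.descFactorial v : ℝ)) * (L₁ * q) ^ e' := by gcongr
      _ = _ := by ring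
  have h7 : (9 * L₁ * q) ^ e' ≤ (9 * L₁ * q) ^ numEdges F :=
    pow_le_pow_of_le_one (by positivity) hx.le (numEdges_le F hF)
  calc ((Pp F H).card : ℝ)
      ≤ ((n - v)! : ℝ) * ∏ i : {c // c ∈ compNT F}, ((injHoms H i.1.toSimpleGraph).card : ℝ) := h1
    _ ≤ ((n - v)! : ℝ) * ((n : ℝ) ^ v * (L₁ * q) ^ e') := by gcongr
    _ ≤ ((n - v)! : ℝ) * ((n.descFactorial v : ℝ) * (9 * L₁ * q) ^ e') := by gcongr
    _ = (n ! : ℝ) * (9 * L₁ * q) ^ e' := by rw [← h5]; ring
    _ ≤ _ := by gcongr

end Forest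

/-- The main theorem in its core form. -/
theorem main_forest {n : ℕ} (H : SimpleGraph (Fin n)) (hH : H.IsAcyclic) (q : ℝ) (hq0 : 0 < q)
    (hq1 : q ≤ 1) (hyp : ∀ F : SimpleGraph (Fin n), F ≤ H → (1 / 2 : ℝ) ≤ copies ⊤ F * q ^ numEdges F)
    (F : SimpleGraph (Fin n)) (hF : F ≤ H) :
    (copies H F : ℝ) ≤ copies ⊤ F * (min 1 (2000000 * q)) ^ numEdges F := by
  classical
  have htriv : (copies H F : ℝ) ≤ copies ⊤ F := by exact_mod_cast copies_le_top F H
  by_cases hL : 1 ≤ 2000000 * q
  · rw [min_eq_left hL]; simpa using htriv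
  rw [not_le] at hL
  rw [min_eq_right hL.le]
  rcases Nat.eq_zero_or_pos n with hn | hn
  · subst hn
    have : numEdges F = 0 := by
      unfold numEdges
      rw [Set.ncard_eq_zero (Set.toFinite _)]
      apply Set.eq_empty_of_forall_notMem
      intro e
      induction e using Sym2.ind with
      | _ x _ => exact x.elim0
    rw [this]
    simpa using htriv
  have hFa : F.IsAcyclic := hH.anti hF
  let rep : H.ConnectedComponent → Fin n := fun c => Classical.choose c.exists_rep
  have hrep : ∀ c, H.connectedComponentMk (rep c) = c := fun c => Classical.choose_spec c.exists_rep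
  obtain ⟨par, d, hlay, _, _, _, _⟩ := exists_layering H hH (fun x => rep (H.connectedComponentMk x))
    (fun x => SimpleGraph.ConnectedComponent.exact (hrep _))
    (fun x y hxy => by
      show rep _ = rep _
      rw [SimpleGraph.ConnectedComponent.connectedComponentMk_eq_of_adj hxy])
  have htree : ∀ c ∈ compNT F, ((injHoms H c.toSimpleGraph).card : ℝ)
      ≤ (n : ℝ) ^ Fintype.card c * (208000 * q) ^ (Fintype.card c - 1) := by
    intro c hc
    have hW : 2 ≤ Fintype.card c := (Finset.mem_filter.1 hc).2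
    have hcard : Fintype.card c ≤ n := by
      have := Fintype.card_le_of_injective (Subtype.val : c → Fin n) Subtype.val_injective
      simpa using this
    exact tree_bound H par d hn q hq0 hq1 hyp hlay c.toSimpleGraph
      (hFa.isTree_connectedComponent c) hcard hW
  have hx : 9 * (208000 : ℝ) * q < 1 := by nlinarith
  have h1 := Pp_bound F H hFa q 208000 hq0 (by norm_num) htree hx
  have h2 := copies_ratio F H
  have h3 : (copies H F : ℝ) * (n ! : ℝ) = (copies ⊤ F : ℝ) * ((Pp F H).card : ℝ) := by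
    exact_mod_cast h2
  have hfac : (0 : ℝ) < (n ! : ℝ) := by positivity
  have h4 : (9 * (208000 : ℝ) * q) ^ numEdges F ≤ (2000000 * q) ^ numEdges F := by
    gcongr
    norm_num
  have h5 : (copies ⊤ F : ℝ) * ((Pp F H).card : ℝ)
      ≤ ((copies ⊤ F : ℝ) * (2000000 * q) ^ numEdges F) * (n ! : ℝ) := by
    calc (copies ⊤ F : ℝ) * ((Pp F H).card : ℝ)
        ≤ (copies ⊤ F : ℝ) * ((n ! : ℝ) * (9 * (208000 : ℝ) * q) ^ numEdges F) := by gcongr
      _ ≤ (copies ⊤ F : ℝ) * ((n ! : ℝ) * (2000000 * q) ^ numEdges F) := by gcongr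
      _ = _ := by ring
  rw [← h3] at h5
  exact le_of_mul_le_mul_right h5 hfac

end Vale.Agent.Lib.P064F
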