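import Vale.Agent.Lib.P064F.Count
import Vale.Agent.Lib.P064F.Defs

open Finset
open scoped Nat BigOperators

namespace Vale.Agent.Lib.P064F

section ParGraph

variable {Y : Type*}

/-- The graph of a parent structure. -/
def parGraph (par : Y → Option Y) : SimpleGraph Y :=
  SimpleGraph.fromRel (fun a b => par a = some b)

lemma aut_map_eq {n : ℕ} (par : Y → Option Y) (g : AutOf par) (j : Y ↪ Fin n) :
    (parGraph par).map (g.1.toEmbedding.trans j) = (parGraph par).map j := by
  have hfw : ∀ a b, (parGraph par).Adj a b → (parGraph par).Adj (g.1 a) (g.1 b) := by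
    intro a b hab
    obtain ⟨hne, h⟩ := (SimpleGraph.fromRel_adj _ _ _).1 hab
    refine (SimpleGraph.fromRel_adj _ _ _).2 ⟨fun he => hne (g.1.injective he), ?_⟩
    rcases h with h | h
    · left; rw [g.2 a, h]; rfl
    · right; rw [g.2 b, h]; rfl
  have hinv : ∀ a b, par a = some b → par (g.1.symm a) = some (g.1.symm b) := by
    intro a b hab
    have h1 := g.2 (g.1.symm a)
    rw [Equiv.apply_symm_apply, hab] at h1
    rcases hc : par (g.1.symm a) with _ | c
    · rw [hc] at h1; simp at h1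
    · rw [hc] at h1
      have h2 : b = g.1 c := Option.some.inj h1
      rw [h2, Equiv.symm_apply_apply]
  have hbw : ∀ a b, (parGraph par).Adj a b → (parGraph par).Adj (g.1.symm a) (g.1.symm b) := by
    intro a b hab
    obtain ⟨hne, h⟩ := (SimpleGraph.fromRel_adj _ _ _).1 hab
    refine (SimpleGraph.fromRel_adj _ _ _).2 ⟨fun he => hne (g.1.symm.injective he), ?_⟩
    rcases h with h | h
    · exact Or.inl (hinv a b h)
    · exact Or.inr (hinv b a h)
  ext x y
  simp only [SimpleGraph.map_adj]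
  constructor
  · rintro ⟨a, b, hab, rfl, rfl⟩
    exact ⟨g.1 a, g.1 b, hfw a b hab, rfl, rfl⟩
  · rintro ⟨a, b, hab, rfl, rfl⟩
    refine ⟨g.1.symm a, g.1.symm b, hbw a b hab, ?_, ?_⟩ <;> simp

/-- Number of copies in the complete graph. -/
lemma copies_top_mul_aut_le {n : ℕ} [Fintype Y] [DecidableEq Y] (par : Y → Option Y)
    (ι : Y ↪ Fin n) :
    Nat.card (AutOf par) * copies ⊤ ((parGraph par).map ι) ≤ n ^ Fintype.card Y := by
  classical
  let Gr : (Y ↪ Fin n) → SimpleGraph (Fin n) := fun j => (parGraph par).map j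
  have h1 := Finset.mul_card_image_le_card (f := Gr) (univ : Finset (Y ↪ Fin n))
    (Nat.card (AutOf par)) (by
      intro y hy
      obtain ⟨j₀, _, rfl⟩ := Finset.mem_image.1 hy
      let _ : Fintype (AutOf par) := Fintype.ofFinite _
      rw [Nat.card_eq_fintype_card, ← Finset.card_univ]
      apply Finset.card_le_card_of_injOn (fun g => g.1.toEmbedding.trans j₀)
      · intro g _
        exact Finset.mem_coe.2 (Finset.mem_filter.2 ⟨mem_univ _, aut_map_eq par g j₀⟩)
      · intro g _ g' _ he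
        apply Subtype.ext
        apply Equiv.ext
        intro a
        exact j₀.injective (DFunLike.congr_fun he a))
  have h2 : copies ⊤ ((parGraph par).map ι) ≤ ((univ : Finset (Y ↪ Fin n)).image Gr).card := by
    have hsub : {F' : SimpleGraph (Fin n) | F' ≤ ⊤ ∧ Nonempty (F' ≃g (parGraph par).map ι)}
        ⊆ ↑((univ : Finset (Y ↪ Fin n)).image Gr) := by
      rintro F' ⟨_, ⟨τ⟩⟩
      apply Finset.mem_coe.2
      refine Finset.mem_image.2 ⟨ι.trans τ.symm.toEquiv.toEmbedding, mem_univ _, ?_⟩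
      have hj : ∀ a, τ ((ι.trans τ.symm.toEquiv.toEmbedding) a) = ι a :=
        fun a => τ.toEquiv.apply_symm_apply (ι a)
      ext x y
      simp only [Gr, SimpleGraph.map_adj]
      constructor
      · rintro ⟨a, b, hab, rfl, rfl⟩
        apply τ.map_adj_iff.1
        rw [hj, hj, SimpleGraph.map_adj]
        exact ⟨a, b, hab, rfl, rfl⟩
      · intro hxy
        have := τ.map_adj_iff.2 hxy
        rw [SimpleGraph.map_adj] at this
        obtain ⟨a, b, hab, h1, h2⟩ := this
        refine ⟨a, b, hab, ?_, ?_⟩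
        · apply τ.injective
          rw [hj, h1]
        · apply τ.injective
          rw [hj, h2]
    calc copies ⊤ ((parGraph par).map ι)
        = Set.ncard {F' : SimpleGraph (Fin n) | F' ≤ ⊤ ∧ Nonempty (F' ≃g (parGraph par).map ι)} :=
          Nat.card_coe_set_eq _
      _ ≤ Set.ncard (↑((univ : Finset (Y ↪ Fin n)).image Gr) : Set (SimpleGraph (Fin n))) :=
          Set.ncard_le_ncard hsub (Finset.finite_toSet _)
      _ = _ := Set.ncard_coe_finset _
  have h3 : (univ : Finset (Y ↪ Fin n)).card ≤ n ^ Fintype.card Y := by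
    rw [Finset.card_univ, Fintype.card_embedding_eq, Fintype.card_fin]
    exact Nat.descFactorial_le_pow _ _
  calc Nat.card (AutOf par) * copies ⊤ ((parGraph par).map ι)
      ≤ Nat.card (AutOf par) * ((univ : Finset (Y ↪ Fin n)).image Gr).card := by gcongr
    _ ≤ _ := h1
    _ ≤ _ := h3

/-- Number of edges is at least number of non-roots. -/
lemma card_nonroot_le_numEdges {n : ℕ} [Fintype Y] [DecidableEq Y] (par : Y → Option Y)
    (δ : Y → ℕ) (hδ : ∀ a b, par a = some b → δ a = δ b + 1) (ι : Y ↪ Fin n) :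
    ((univ : Finset Y).filter (fun a => par a ≠ none)).card
      ≤ numEdges ((parGraph par).map ι) := by
  classical
  let f : Y → Sym2 (Fin n) := fun a => match par a with
    | none => s(ι a, ι a)
    | some b => s(ι a, ι b)
  have hmem : ∀ a, par a ≠ none → f a ∈ ((parGraph par).map ι).edgeSet := by
    intro a ha
    rcases hp : par a with _ | b
    · exact absurd hp ha
    · have : f a = s(ι a, ι b) := by simp only [f, hp]
      rw [this, SimpleGraph.mem_edgeSet, SimpleGraph.map_adj]
      refine ⟨a, b, ?_, rfl, rfl⟩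
      refine (SimpleGraph.fromRel_adj _ _ _).2 ⟨?_, Or.inl hp⟩
      intro he
      have := hδ a b hp
      rw [← he] at this
      omega
  have hinj : Set.InjOn f (↑((univ : Finset Y).filter (fun a => par a ≠ none)) : Set Y) := by
    intro a ha a' ha' he
    have ha1 := (Finset.mem_filter.1 (Finset.mem_coe.1 ha)).2
    have ha2 := (Finset.mem_filter.1 (Finset.mem_coe.1 ha')).2
    rcases hp : par a with _ | b
    · exact absurd hp ha1
    rcases hp' : par a' with _ | b'
    · exact absurd hp' ha2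
    have h1 : f a = s(ι a, ι b) := by simp only [f, hp]
    have h2 : f a' = s(ι a', ι b') := by simp only [f, hp']
    rw [h1, h2, Sym2.eq_iff] at he
    rcases he with ⟨he, _⟩ | ⟨he, he'⟩
    · exact ι.injective he
    · exfalso
      have h3 := ι.injective he
      have h4 := ι.injective he'
      have h5 := hδ a b hp
      have h6 := hδ a' b' hp'
      rw [h3] at h5
      rw [← h4] at h6
      omega
  unfold numEdges
  rw [← Set.ncard_coe_finset, ← Set.InjOn.ncard_image hinj]
  apply Set.ncard_le_ncard _ (Set.toFinite _)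
  rintro _ ⟨a, ha, rfl⟩
  exact hmem a (Finset.mem_filter.1 (Finset.mem_coe.1 ha)).2

end ParGraph

section NodeFacts

variable {M : ℕ}

lemma card_nonroot_node (h : ℕ) (s : Shape M h) :
    ((univ : Finset (Node M h s)).filter (fun u => Node.parent M h s u ≠ none)).card
      = edges M h s := by
  classical
  have h1 : (univ : Finset (Node M h s)).filter (fun u => Node.parent M h s u ≠ none)
      = (univ : Finset (Node M h s)).erase (Node.root M h s) := by
    ext u
    simp only [Finset.mem_filter, mem_univ, true_and, Finset.mem_erase, and_true]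
    constructor
    · intro hu he
      rw [he, Node.parent_root] at hu
      exact hu rfl
    · intro hu he
      exact hu (Node.eq_root_of_parent_none M h s u he)
  rw [h1, Finset.card_erase_of_mem (mem_univ _), Finset.card_univ, ← Nat.card_eq_fintype_card,
    card_node]
  simp

/-- The bound from one use of the hypothesis on `m` disjoint copies of shape `s`. -/
lemma packing_pow {n : ℕ} (m h : ℕ) (s : Shape M h) (q : ℝ) (hq0 : 0 < q) (hq1 : q ≤ 1)
    (ι : Fin m × Node M h s ↪ Fin n)
    (hyp : (1 / 2 : ℝ) ≤ copies ⊤ ((parGraph (prodPar m (Node.parent M h s))).map ι)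
      * q ^ numEdges ((parGraph (prodPar m (Node.parent M h s))).map ι)) :
    (m ! : ℝ) * (autL M h s : ℝ) ^ m ≤ 2 * ((n : ℝ) * ((n : ℝ) * q) ^ edges M h s) ^ m := by
  classical
  set par := prodPar m (Node.parent M h s) with hpar
  set e := edges M h s with he
  set F' := (parGraph par).map ι with hF'
  have hδ : ∀ a b, par a = some b → (Node.depth M h s a.2) = Node.depth M h s b.2 + 1 := by
    rintro ⟨j, u⟩ b hab
    simp only [hpar, prodPar] at hab
    rcases hp : Node.parent M h s u with _ | v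
    · rw [hp] at hab; simp at hab
    · rw [hp] at hab
      have : (j, v) = b := Option.some.inj hab
      subst this
      exact Node.depth_parent M h s u v hp
  have hedges : m * e ≤ numEdges F' := by
    have h1 := card_nonroot_le_numEdges par (fun a => Node.depth M h s a.2) hδ ι
    refine le_trans (le_of_eq ?_) h1
    have h2 : (univ : Finset (Fin m × Node M h s)).filter (fun a => par a ≠ none)
        = (univ : Finset (Fin m)) ×ˢ (univ : Finset (Node M h s)).filter
            (fun u => Node.parent M h s u ≠ none) := by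
      ext ⟨j, u⟩
      simp only [Finset.mem_filter, mem_univ, true_and, Finset.mem_product, hpar, prodPar]
      rcases Node.parent M h s u with _ | v <;> simp
    rw [h2, Finset.card_product, card_nonroot_node]
    simp [he]
  have haut : (m ! : ℝ) * (autL M h s : ℝ) ^ m ≤ (Nat.card (AutOf par) : ℝ) := by
    have h1 := wreath_card m (Node.parent M h s)
    have h2 := autL_le_card M h s
    have h3 : m ! * (autL M h s) ^ m ≤ Nat.card (AutOf par) :=
      le_trans (by gcongr) h1
    exact_mod_cast h3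
  have hcop := copies_top_mul_aut_le par ι
  have hcardX : Fintype.card (Fin m × Node M h s) = m * (1 + e) := by
    rw [Fintype.card_prod, Fintype.card_fin, ← Nat.card_eq_fintype_card, card_node]
  rw [hcardX] at hcop
  have hcop' : (Nat.card (AutOf par) : ℝ) * (copies ⊤ F' : ℝ) ≤ (n : ℝ) ^ (m * (1 + e)) := by
    exact_mod_cast hcop
  have hqpow : q ^ numEdges F' ≤ q ^ (m * e) := pow_le_pow_of_le_one hq0.le hq1 hedges
  have hqpos : 0 < q ^ numEdges F' := by positivity
  have hA : (0 : ℝ) ≤ (m ! : ℝ) * (autL M h s : ℝ) ^ m := by positivity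
  have hc0 : (0 : ℝ) ≤ (copies ⊤ F' : ℝ) := by positivity
  have hrhs : ((n : ℝ) * ((n : ℝ) * q) ^ e) ^ m = (n : ℝ) ^ (m * (1 + e)) * q ^ (m * e) := by
    rw [mul_pow, mul_pow, mul_pow, ← pow_mul, ← pow_mul, ← mul_assoc, ← pow_add]
    congr 2
    · ring
    · ring
  rw [hrhs]
  have hn0 : (0 : ℝ) ≤ (n : ℝ) ^ (m * (1 + e)) := by positivity
  calc (m ! : ℝ) * (autL M h s : ℝ) ^ m
      = 2 * ((1 / 2 : ℝ) * ((m ! : ℝ) * (autL M h s : ℝ) ^ m)) := by ring
    _ ≤ 2 * (((copies ⊤ F' : ℝ) * q ^ numEdges F') * ((m ! : ℝ) * (autL M h s : ℝ) ^ m)) := by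
        gcongr
    _ = 2 * (q ^ numEdges F' * (((m ! : ℝ) * (autL M h s : ℝ) ^ m) * (copies ⊤ F' : ℝ))) := by ring
    _ ≤ 2 * (q ^ numEdges F' * ((Nat.card (AutOf par) : ℝ) * (copies ⊤ F' : ℝ))) := by gcongr
    _ ≤ 2 * (q ^ numEdges F' * (n : ℝ) ^ (m * (1 + e))) := by gcongr
    _ ≤ 2 * (q ^ (m * e) * (n : ℝ) ^ (m * (1 + e))) := by gcongr
    _ = _ := by ring

/-- Numeric consequence of the previous lemma. -/
lemma packing_num (m : ℕ) (a x : ℝ) (ha : 0 ≤ a) (hx : 0 ≤ x)
    (hyp : (m ! : ℝ) * a ^ m ≤ 2 * x ^ m) : (m : ℝ) * a ≤ 6 * x := by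
  rcases Nat.eq_zero_or_pos m with h0 | hm
  · subst h0; simp; positivity
  by_contra hcon
  rw [not_le] at hcon
  have h1 := aux_pow_le m m
  have hfac : (0 : ℝ) < (m ! : ℝ) := by positivity
  have h2 : ((m : ℝ) * a) ^ m ≤ (3 : ℝ) ^ m * (2 * x ^ m) := by
    rw [mul_pow]
    calc (m : ℝ) ^ m * a ^ m ≤ ((m ! : ℝ) * 3 ^ m) * a ^ m := by gcongr
      _ = 3 ^ m * ((m ! : ℝ) * a ^ m) := by ring
      _ ≤ _ := by gcongr
  have h3 : (6 * x) ^ m < ((m : ℝ) * a) ^ m :=
    pow_lt_pow_left₀ hcon (by positivity) (by omega)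
  have h4 : (3 : ℝ) ^ m * (2 * x ^ m) ≤ (6 * x) ^ m := by
    have : (6 * x) ^ m = (3 : ℝ) ^ m * (2 : ℝ) ^ m * x ^ m := by
      rw [← mul_pow, ← mul_pow]; norm_num
    rw [this]
    have h2m : (2 : ℝ) ≤ 2 ^ m := by
      calc (2 : ℝ) = 2 ^ 1 := by norm_num
        _ ≤ 2 ^ m := pow_le_pow_right₀ (by norm_num) hm
    have hxm : 0 ≤ x ^ m := by positivity
    have h3m : (0 : ℝ) < 3 ^ m := by positivity
    calc (3 : ℝ) ^ m * (2 * x ^ m) = 3 ^ m * (2 * x ^ m) := rfl
      _ ≤ 3 ^ m * (2 ^ m * x ^ m) := by gcongr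
      _ = _ := by ring
  linarith

end NodeFacts


section Claim2

variable {n : ℕ} (H : SimpleGraph (Fin n)) (par : Fin n → Fin n) (d : Fin n → ℕ)

lemma class_bound (hn : 0 < n) (q : ℝ) (hq0 : 0 < q) (hq1 : q ≤ 1)
    (hyp : ∀ F : SimpleGraph (Fin n), F ≤ H → (1 / 2 : ℝ) ≤ copies ⊤ F * q ^ numEdges F)
    (h : ℕ) (a : ℕ) (s : Shape n h) (Chat : ℝ) (hChat : Chat = 4 * ((n : ℝ) * q))
    (Cl : Finset (Fin n)) (hCl : Cl = (univ : Finset (Fin n)).filter (fun w => d w % (h + 1) = a ∧
      best (M := n) par d (chG H par d) Chat h w = s)) :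
    (Cl.card : ℝ) * val n h Chat s
      ≤ 6 * n * (((wt n h s : ℝ) / (autL n h s : ℝ)) * (1 / 4 : ℝ) ^ (edges n h s)) := by
  classical
  set ch := chG H par d with hch
  have hmemCl : ∀ w ∈ Cl, d w % (h + 1) = a ∧ best (M := n) par d ch Chat h w = s := by
    intro w hw
    rw [hCl] at hw
    exact (Finset.mem_filter.1 hw).2
  set m := Cl.card with hm
  have hnr : (0 : ℝ) < n := by exact_mod_cast hn
  have hC : 0 < (n : ℝ) * q := by positivity
  have hrep : ∀ w : {w // w ∈ Cl}, ∃ β : Node n h s → Fin n, Rep par d ch h s β w.1 := by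
    intro w
    have h1 := best_rec (M := n) par d ch Chat h w.1
    rw [(hmemCl w.1 w.2).2] at h1
    exact h1
  choose B hB using hrep
  let e : Fin m ≃ {w // w ∈ Cl} := Cl.equivFin.symm
  let ι : Fin m × Node n h s → Fin n := fun x => B (e x.1) x.2
  have hι : Function.Injective ι := by
    rintro ⟨j, u⟩ ⟨j', u'⟩ he
    have hmod : d (e j).1 ≡ d (e j').1 [MOD h + 1] := by
      unfold Nat.ModEq
      rw [(hmemCl _ (e j).2).1, (hmemCl _ (e j').2).1]
    have h1 := rep_eq_of_mod par d ch (hB (e j)) (hB (e j')) he hmod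
    have h2 : j = j' := e.injective (Subtype.ext h1)
    subst h2
    have h3 := (hB (e j)).inj he
    subst h3
    rfl
  let ιe : Fin m × Node n h s ↪ Fin n := ⟨ι, hι⟩
  set par' := prodPar m (Node.parent n h s) with hpar'
  have hedge : ∀ x y, par' x = some y → H.Adj (ι y) (ι x) := by
    rintro ⟨j, u⟩ y hxy
    simp only [hpar', prodPar] at hxy
    rcases hp : Node.parent n h s u with _ | v
    · rw [hp] at hxy; simp at hxy
    · rw [hp] at hxy
      have : (j, v) = y := Option.some.inj hxy
      subst this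
      exact ((hB (e j)).par_ch u v hp).1
  have hle : (parGraph par').map ιe ≤ H := by
    intro x y hxy
    rw [SimpleGraph.map_adj] at hxy
    obtain ⟨a', b', hab, rfl, rfl⟩ := hxy
    obtain ⟨_, h1⟩ := (SimpleGraph.fromRel_adj _ _ _).1 hab
    rcases h1 with h1 | h1
    · exact (hedge _ _ h1).symm
    · exact hedge _ _ h1
  have h1 := packing_pow m h s q hq0 hq1 ιe (hyp _ hle)
  have h2 := packing_num m (autL n h s : ℝ) ((n : ℝ) * ((n : ℝ) * q) ^ edges n h s) (by positivity)
    (by positivity) h1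
  have haut : (0 : ℝ) < (autL n h s : ℝ) := by exact_mod_cast autL_pos n h s
  have hpow : Chat ^ edges n h s = 4 ^ edges n h s * ((n : ℝ) * q) ^ edges n h s := by
    rw [hChat, mul_pow]
  have hCp : 0 < ((n : ℝ) * q) ^ edges n h s := by positivity
  simp only [val]
  rw [hpow]
  have h4 : (1 / 4 : ℝ) ^ edges n h s = 1 / 4 ^ edges n h s := by
    rw [one_div, one_div, inv_pow]
  rw [h4]
  have hwt : (0 : ℝ) ≤ (wt n h s : ℝ) := by positivity
  have h5 : (m : ℝ) * ((wt n h s : ℝ) / (4 ^ edges n h s * ((n : ℝ) * q) ^ edges n h s))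
      = ((m : ℝ) * (autL n h s : ℝ)) * ((wt n h s : ℝ) / (autL n h s : ℝ) * (1 / 4 ^ edges n h s))
        / ((n : ℝ) * q) ^ edges n h s := by
    field_simp
  rw [h5, div_le_iff₀ hCp]
  calc ((m : ℝ) * (autL n h s : ℝ)) * ((wt n h s : ℝ) / (autL n h s : ℝ) * (1 / 4 ^ edges n h s))
      ≤ (6 * ((n : ℝ) * ((n : ℝ) * q) ^ edges n h s))
        * ((wt n h s : ℝ) / (autL n h s : ℝ) * (1 / 4 ^ edges n h s)) := by gcongr
    _ = _ := by ring

theorem claim2 (hn : 0 < n) (q : ℝ) (hq0 : 0 < q) (hq1 : q ≤ 1)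
    (hyp : ∀ F : SimpleGraph (Fin n), F ≤ H → (1 / 2 : ℝ) ≤ copies ⊤ F * q ^ numEdges F)
    (h : ℕ) :
    ∑ w, AA par d (chG H par d) (4 * ((n : ℝ) * q)) n h w ≤ ((h : ℝ) + 1) * (12 * n) := by
  classical
  set Chat := 4 * ((n : ℝ) * q) with hChat
  set g : Fin n → ℕ × Shape n h := fun w =>
    (d w % (h + 1), best (M := n) par d (chG H par d) Chat h w) with hg
  have hmaps : ∀ w ∈ (univ : Finset (Fin n)), g w ∈ range (h + 1) ×ˢ (univ : Finset (Shape n h)) := by
    intro w _
    exact Finset.mem_product.2 ⟨Finset.mem_range.2 (Nat.mod_lt _ (by omega)), mem_univ _⟩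
  rw [← Finset.sum_fiberwise_of_maps_to hmaps, Finset.sum_product]
  have hterm : ∀ a ∈ range (h + 1), ∑ s : Shape n h, ∑ w ∈ (univ : Finset (Fin n)) with g w = (a, s),
      AA par d (chG H par d) Chat n h w ≤ 12 * n := by
    intro a _
    have h1 : ∀ s : Shape n h, ∑ w ∈ (univ : Finset (Fin n)) with g w = (a, s),
        AA par d (chG H par d) Chat n h w
        ≤ 6 * n * (((wt n h s : ℝ) / (autL n h s : ℝ)) * (1 / 4 : ℝ) ^ (edges n h s)) := by
      intro s
      have h2 := class_bound H par d hn q hq0 hq1 hyp h a s Chat hChat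
        ((univ : Finset (Fin n)).filter (fun w => g w = (a, s))) (by
          ext w
          simp [hg, Prod.ext_iff])
      have h3 : ∑ w ∈ (univ : Finset (Fin n)) with g w = (a, s), AA par d (chG H par d) Chat n h w
          = ∑ w ∈ (univ : Finset (Fin n)) with g w = (a, s), val n h Chat s := by
        apply Finset.sum_congr rfl
        intro w hw
        have h4 : g w = (a, s) := (Finset.mem_filter.1 hw).2
        have h5 : best (M := n) par d (chG H par d) Chat h w = s := (Prod.ext_iff.1 h4).2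
        simp only [AA]
        rw [h5]
      rw [h3, Finset.sum_const, nsmul_eq_mul]
      exact h2
    calc _ ≤ ∑ s : Shape n h, 6 * n * (((wt n h s : ℝ) / (autL n h s : ℝ)) * (1 / 4 : ℝ) ^ (edges n h s)) :=
          Finset.sum_le_sum fun s _ => h1 s
      _ = 6 * n * ∑ s : Shape n h, (((wt n h s : ℝ) / (autL n h s : ℝ)) * (1 / 4 : ℝ) ^ (edges n h s)) := by
          rw [Finset.mul_sum]
      _ ≤ 6 * n * 2 := by
          gcongr
          exact prior_sum n h
      _ = 12 * n := by ring
  calc _ ≤ ∑ a ∈ range (h + 1), (12 * (n : ℝ)) := Finset.sum_le_sum hterm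
    _ = _ := by
      rw [Finset.sum_const, Finset.card_range, nsmul_eq_mul]
      push_cast
      ring

end Claim2

end Vale.Agent.Lib.P064F
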