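import Vale.Agent.Lib.P064F.Shape

open Finset
open scoped Nat BigOperators

namespace Vale.Agent.Lib.P064F

section Rep

variable {M : ℕ} {V : Type*}

/-- An embedded copy of the tree of shape `s` with root `x` inside a rooted structure. -/
structure Rep (par : V → V) (d : V → ℕ) (ch : V → V → Prop) (h : ℕ) (s : Shape M h)
    (β : Node M h s → V) (x : V) : Prop where
  inj : Function.Injective β
  root : β (Node.root M h s) = x
  par_ch : ∀ u v, Node.parent M h s u = some v → ch (β v) (β u)
  anc : ∀ u, ∃ k ≤ h, par^[k] (β u) = x ∧ d (β u) = d x + k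

variable (par : V → V) (d : V → ℕ) (ch : V → V → Prop)

lemma rep_eq_of_mod {h : ℕ} {s s' : Shape M h} {β : Node M h s → V} {β' : Node M h s' → V} {x x' : V}
    (hr : Rep par d ch h s β x) (hr' : Rep par d ch h s' β' x') {u : Node M h s} {u' : Node M h s'}
    (he : β u = β' u') (hmod : d x ≡ d x' [MOD h + 1]) : x = x' := by
  obtain ⟨k, hk, h1, h2⟩ := hr.anc u
  obtain ⟨k', hk', h1', h2'⟩ := hr'.anc u'
  rw [he] at h1 h2
  have h3 : d x + k = d x' + k' := by rw [← h2, h2']
  have h4 : k ≡ k' [MOD h + 1] := by
    apply Nat.ModEq.add_left_cancel hmod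
    rw [h3]
  have h5 : k = k' := Nat.ModEq.eq_of_lt_of_lt h4 (by omega) (by omega)
  rw [← h1, ← h1', h5]

theorem builder_core (hch : ∀ x y, ch x y → par y = x ∧ d y = d x + 1) {h : ℕ} (s : Shape M (h + 1))
    (x : V) (r : ∀ c, Fin (s c) → V) (G : ∀ c (_ : Fin (s c)), Node M h c → V)
    (hG : ∀ c j, Rep par d ch h c (G c j) (r c j)) (hr : ∀ c j, ch x (r c j))
    (hinj : ∀ c j c' j', r c j = r c' j' → (⟨c, j⟩ : Σ c, Fin (s c)) = ⟨c', j'⟩) :
    ∃ β : Node M (h + 1) s → V, Rep par d ch (h + 1) s β x ∧
      (∀ c j u, ∃ v, β v = G c j u) := by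
  let β : Node M (h + 1) s → V := fun a =>
    match (a : Option (Σ c : Shape M h, Fin (s c) × Node M h c)) with
    | none => x
    | some ⟨c, j, u⟩ => G c j u
  refine ⟨β, ⟨?_, rfl, ?_, ?_⟩, fun c j u => ⟨some ⟨c, j, u⟩, rfl⟩⟩
  · rintro (_ | ⟨c, j, u⟩) (_ | ⟨c', j', u'⟩) he
    · rfl
    · exfalso
      have he' : x = G c' j' u' := he
      obtain ⟨k, _, _, h2⟩ := (hG c' j').anc u'
      have h3 := (hch _ _ (hr c' j')).2
      rw [← he'] at h2
      omega
    · exfalso
      have he' : G c j u = x := he
      obtain ⟨k, _, _, h2⟩ := (hG c j).anc u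
      have h3 := (hch _ _ (hr c j)).2
      rw [he'] at h2
      omega
    · have he' : G c j u = G c' j' u' := he
      have h3 := (hch _ _ (hr c j)).2
      have h3' := (hch _ _ (hr c' j')).2
      have h4 := rep_eq_of_mod par d ch (hG c j) (hG c' j') he' (by rw [h3, h3'])
      have h5 := hinj c j c' j' h4
      obtain ⟨rfl, h6⟩ := Sigma.mk.inj_iff.1 h5
      have h7 := eq_of_heq h6
      subst h7
      have h8 := (hG c j).inj he'
      subst h8
      rfl
  · rintro (_ | ⟨c, j, u⟩) v hu
    · simp [Node.parent, conePar] at hu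
    · rw [Node.parent_some] at hu
      have hv := Option.some.inj hu
      rcases hp : Node.parent M h c u with _ | w
      · rw [hp] at hv
        subst hv
        have hroot := Node.eq_root_of_parent_none M h c u hp
        subst hroot
        show ch x (G c j (Node.root M h c))
        rw [(hG c j).root]
        exact hr c j
      · rw [hp] at hv
        subst hv
        exact (hG c j).par_ch u w hp
  · rintro (_ | ⟨c, j, u⟩)
    · exact ⟨0, by omega, rfl, rfl⟩
    · obtain ⟨k, hk, h1, h2⟩ := (hG c j).anc u
      have h3 := hch _ _ (hr c j)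
      refine ⟨k + 1, by omega, ?_, ?_⟩
      · show par^[k + 1] (G c j u) = x
        rw [Function.iterate_succ_apply', h1, h3.1]
      · show d (G c j u) = d x + (k + 1)
        rw [h2, h3.2]; omega

/-- Building a representative with prescribed children. -/
theorem builder (hch : ∀ x y, ch x y → par y = x ∧ d y = d x + 1) {h : ℕ}
    (x : V) (I : Finset V) (hI : ∀ i ∈ I, ch x i) (hcard : I.card ≤ M)
    (S : V → Shape M h) (B : ∀ i, Node M h (S i) → V)
    (hB : ∀ i ∈ I, Rep par d ch h (S i) (B i) i) :
    ∃ (s : Shape M (h + 1)) (β : Node M (h + 1) s → V), Rep par d ch (h + 1) s β x ∧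
      (∀ c, (s c : ℕ) = (I.filter (fun i => S i = c)).card) ∧
      (∀ i ∈ I, ∀ u, ∃ v, β v = B i u) := by
  classical
  let s : Shape M (h + 1) := fun c =>
    ⟨(I.filter (fun i => S i = c)).card,
      Nat.lt_succ_of_le (le_trans (Finset.card_filter_le _ _) hcard)⟩
  let e : ∀ c, Fin (s c) ≃ {i // i ∈ I.filter (fun i => S i = c)} := fun c =>
    (Finset.equivFin (I.filter (fun i => S i = c))).symm
  have hcast : ∀ (c : Shape M h) (i : V) (hi : S i = c), i ∈ I →
      Rep par d ch h c (fun u => B i (hi.symm ▸ u)) i := by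
    intro c i hi hiI
    subst hi
    exact hB i hiI
  obtain ⟨β, hβ, hcov⟩ := builder_core par d ch hch s x (fun c j => (e c j).1)
    (fun c j u => B (e c j).1 ((Finset.mem_filter.1 (e c j).2).2.symm ▸ u))
    (fun c j => hcast c _ (Finset.mem_filter.1 (e c j).2).2 (Finset.mem_filter.1 (e c j).2).1)
    (fun c j => hI _ (Finset.mem_filter.1 (e c j).2).1)
    (by
      intro c j c' j' he
      have h1 : c = c' := by
        rw [← (Finset.mem_filter.1 (e c j).2).2, ← (Finset.mem_filter.1 (e c' j').2).2, he]
      subst h1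
      have h2 : e c j = e c j' := Subtype.ext he
      rw [(e c).injective h2])
  refine ⟨s, β, hβ, fun c => rfl, ?_⟩
  intro i hi u
  have hmem : i ∈ I.filter (fun i' => S i' = S i) := Finset.mem_filter.2 ⟨hi, rfl⟩
  obtain ⟨v, hv⟩ := hcov (S i) ((e (S i)).symm ⟨i, hmem⟩) u
  refine ⟨v, hv.trans ?_⟩
  have h3 : ∀ (i' : V) (hi' : S i' = S i), i' = i →
      B i' (hi'.symm ▸ u) = B i u := by
    intro i' hi' hh
    subst hh
    rfl
  exact h3 _ (Finset.mem_filter.1 (e (S i) ((e (S i)).symm ⟨i, hmem⟩)).2).2
    (by rw [Equiv.apply_symm_apply])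

/-- The formula for the weight of a built shape. -/
lemma built_wt {h : ℕ} (I : Finset V) (S : V → Shape M h) (s : Shape M (h + 1))
    (hs : ∀ c, (s c : ℕ) = (I.filter (fun i => S i = c)).card) :
    wt M (h + 1) s = I.card ! * ∏ i ∈ I, wt M h (S i) := by
  classical
  have h1 : ∑ c, (s c : ℕ) = I.card := by
    rw [Finset.card_eq_sum_card_fiberwise (f := S) (t := univ) (fun _ _ => Finset.mem_coe.2 (mem_univ _))]
    exact Finset.sum_congr rfl fun c _ => hs c
  have h2 : ∏ c, wt M h c ^ (s c : ℕ) = ∏ i ∈ I, wt M h (S i) := by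
    rw [← Finset.prod_fiberwise_of_maps_to (s := I) (t := univ) (g := S) (fun _ _ => mem_univ _)]
    apply Finset.prod_congr rfl
    intro c _
    rw [hs c, ← Finset.prod_const]
    apply Finset.prod_congr rfl
    intro i hi
    rw [(Finset.mem_filter.1 hi).2]
  simp only [wt, h1, h2]

/-- The formula for the number of edges of a built shape. -/
lemma built_edges {h : ℕ} (I : Finset V) (S : V → Shape M h) (s : Shape M (h + 1))
    (hs : ∀ c, (s c : ℕ) = (I.filter (fun i => S i = c)).card) :
    edges M (h + 1) s = ∑ i ∈ I, (1 + edges M h (S i)) := by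
  classical
  rw [← Finset.sum_fiberwise_of_maps_to (s := I) (t := univ) (g := S) (fun _ _ => mem_univ _)]
  simp only [edges]
  apply Finset.sum_congr rfl
  intro c _
  rw [hs c, ← smul_eq_mul, ← Finset.sum_const]
  apply Finset.sum_congr rfl
  intro i hi
  rw [(Finset.mem_filter.1 hi).2]

/-- The one point shape. -/
def Shape.leaf (M : ℕ) : ∀ h, Shape M h
  | 0 => ()
  | _ + 1 => fun _ => 0

lemma leaf_wt (M h : ℕ) : wt M h (Shape.leaf M h) = 1 := by
  cases h with
  | zero => rfl
  | succ h => simp [wt, Shape.leaf]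

lemma leaf_edges (M h : ℕ) : edges M h (Shape.leaf M h) = 0 := by
  cases h with
  | zero => rfl
  | succ h => simp [edges, Shape.leaf]

lemma leaf_rep (M h : ℕ) (x : V) :
    Rep par d ch h (Shape.leaf M h) (fun _ => x) x := by
  have hsub : ∀ h, Subsingleton (Node M h (Shape.leaf M h)) := by
    intro h
    cases h with
    | zero => exact inferInstanceAs (Subsingleton Unit)
    | succ h =>
      constructor
      rintro (_ | ⟨c, j, u⟩) (_ | ⟨c', j', u'⟩)
      · rfl
      · exact j'.elim0
      · exact j.elim0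
      · exact j.elim0
  refine ⟨fun a b _ => (hsub h).elim a b, rfl, ?_, fun u => ⟨0, by omega, rfl, rfl⟩⟩
  intro u v hu
  exfalso
  have h1 := Node.depth_parent M h _ u v hu
  have h2 : u = Node.root M h _ := (hsub h).elim _ _
  have h3 : v = Node.root M h _ := (hsub h).elim _ _
  rw [h2, h3] at h1
  omega

/-- Full representatives of all descendants. -/
theorem exists_rep_covering [Fintype V] [DecidableRel ch] (hcard : Fintype.card V ≤ M)
    (hch : ∀ x y, ch x y → par y = x ∧ d y = d x + 1)
    (hroot : ∀ y, d y = 0 ∨ ch (par y) y) (D : ℕ) (hD : ∀ y, d y ≤ D) :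
    ∀ (h : ℕ) (x : V), D ≤ d x + h → ∃ (s : Shape M h) (β : Node M h s → V), Rep par d ch h s β x ∧
      ∀ y k, par^[k] y = x → d y = d x + k → ∃ u, β u = y := by
  intro h
  induction h with
  | zero =>
    intro x hx
    refine ⟨Shape.leaf M 0, fun _ => x, leaf_rep par d ch M 0 x, ?_⟩
    intro y k h1 h2
    have h3 := hD y
    have h4 : k = 0 := by omega
    subst h4
    exact ⟨Node.root M 0 _, h1.symm⟩
  | succ h ih =>
    intro x hx
    classical
    set I : Finset V := univ.filter (fun i => ch x i) with hI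
    have hIch : ∀ i ∈ I, ch x i := fun i hi => (Finset.mem_filter.1 hi).2
    have hex : ∀ i, ∃ p : (Σ s : Shape M h, (Node M h s → V)), i ∈ I →
        Rep par d ch h p.1 p.2 i ∧ ∀ y k, par^[k] y = i → d y = d i + k → ∃ u, p.2 u = y := by
      intro i
      by_cases hi : i ∈ I
      · have hdi := (hch _ _ (hIch i hi)).2
        obtain ⟨s, β, h1, h2⟩ := ih i (by omega)
        exact ⟨⟨s, β⟩, fun _ => ⟨h1, h2⟩⟩
      · exact ⟨⟨Shape.leaf M h, fun _ => i⟩, fun hi' => absurd hi' hi⟩
    choose p hp using hex
    have hIcard : I.card ≤ M := le_trans (Finset.card_le_univ _) hcard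
    obtain ⟨s, β, hβ, _, hcov⟩ := builder par d ch hch x I hIch hIcard (fun i => (p i).1)
      (fun i => (p i).2) (fun i hi => (hp i hi).1)
    refine ⟨s, β, hβ, ?_⟩
    intro y k h1 h2
    rcases k with _ | k
    · exact ⟨Node.root M (h + 1) s, by rw [hβ.root]; exact h1.symm⟩
    · have h3 : ∀ j ≤ k, d (par^[j] y) + j = d y := by
        intro j
        induction j with
        | zero => intro _; rfl
        | succ j ihj =>
          intro hj
          have h4 := ihj (by omega)
          rw [Function.iterate_succ_apply']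
          rcases hroot (par^[j] y) with h5 | h5
          · omega
          · have := (hch _ _ h5).2
            omega
      set z := par^[k] y with hz
      have h4 : d z = d x + 1 := by
        have : d z + k = d y := h3 k (le_refl k)
        omega
      have h5 : par z = x := by
        rw [← h1, Function.iterate_succ_apply']
      have h6 : ch x z := by
        rcases hroot z with h7 | h7
        · omega
        · rwa [h5] at h7
      have hzI : z ∈ I := Finset.mem_filter.2 ⟨mem_univ _, h6⟩
      obtain ⟨u, hu⟩ := (hp z hzI).2 y k rfl (by omega)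
      obtain ⟨v, hv⟩ := hcov z hzI u
      exact ⟨v, hv.trans hu⟩

end Rep

section Layering

variable {V : Type*}

/-- The child relation of a layering of `G`. -/
def chG (G : SimpleGraph V) (par : V → V) (d : V → ℕ) (x y : V) : Prop :=
  G.Adj x y ∧ par y = x ∧ d y = d x + 1

theorem exists_layering [Fintype V] (G : SimpleGraph V) (hG : G.IsAcyclic) (ρ : V → V)
    (hρ1 : ∀ x, G.Reachable (ρ x) x) (hρ2 : ∀ x y, G.Adj x y → ρ x = ρ y) :
    ∃ (par : V → V) (d : V → ℕ), (∀ x y, G.Adj x y → chG G par d x y ∨ chG G par d y x) ∧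
      (∀ y, d y = 0 → y = ρ y) ∧ (∀ y, d y = 0 ∨ chG G par d (par y) y) ∧
      (∀ y, d y < Fintype.card V) ∧ (∀ y, ρ y = y → d y = 0) := by
  classical
  have hq : ∀ y, ∃ q : G.Walk (ρ y) y, q.IsPath ∧ q.length = G.dist (ρ y) y :=
    fun y => (hρ1 y).exists_path_of_dist
  choose q hq1 hq2 using hq
  let par : V → V := fun y => (q y).penultimate
  let d : V → ℕ := fun y => G.dist (ρ y) y
  have key : ∀ x y, G.Adj x y → d y = d x + 1 → chG G par d x y := by
    intro x y hadj hd
    refine ⟨hadj, ?_, hd⟩
    have hr : ρ x = ρ y := hρ2 x y hadj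
    have hreach : G.Reachable (ρ y) x := hr ▸ hρ1 x
    obtain ⟨p, hp1, hp2⟩ := hreach.exists_path_of_dist
    have hdx : d x = G.dist (ρ y) x := by simp only [d]; rw [hr]
    by_cases hy : y ∈ p.support
    · exfalso
      have := hG.path_concat (hq1 y) hp1 hadj.symm hy
      have h1 := congrArg SimpleGraph.Walk.length this
      rw [SimpleGraph.Walk.length_concat, hq2 y, hp2] at h1
      simp only [d] at hd hdx
      omega
    · have hmem := hG.mem_support_of_ne_mem_support_of_adj_of_isPath (hq1 y) hp1 hadj.symm hy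
      exact (hG.eq_penultimate_of_adj_end (hq1 y) hadj.symm hmem).symm
  have hadj' : ∀ x y, G.Adj x y → d y = d x + 1 ∨ d x = d y + 1 := by
    intro x y hadj
    have hr : ρ x = ρ y := hρ2 x y hadj
    have := hG.dist_eq_dist_add_one_of_adj_of_reachable (ρ x) hadj (hρ1 x)
    simp only [d]
    rw [← hr]
    omega
  refine ⟨par, d, ?_, ?_, ?_, ?_, ?_⟩
  · intro x y hadj
    rcases hadj' x y hadj with h | h
    · exact Or.inl (key x y hadj h)
    · exact Or.inr (key y x hadj.symm h)
  · intro y hy
    exact (((hρ1 y).dist_eq_zero_iff).1 hy).symm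
  · intro y
    by_cases hy : d y = 0
    · exact Or.inl hy
    · right
      have hnil : ¬ (q y).Nil := by
        intro hn
        have := SimpleGraph.Walk.length_eq_zero_iff.2 hn
        rw [hq2 y] at this
        exact hy this
      have hadj : G.Adj (par y) y := SimpleGraph.Walk.adj_penultimate hnil
      rcases hadj' (par y) y hadj with h | h
      · exact key _ _ hadj h
      · exfalso
        have hr : ρ (par y) = ρ y := hρ2 _ _ hadj
        have hle : G.dist (ρ y) (par y) ≤ (q y).dropLast.length := SimpleGraph.dist_le _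
        have hlen : (q y).dropLast.length + 1 = (q y).length := by
          have := congrArg SimpleGraph.Walk.length ((q y).concat_dropLast hadj)
          rw [SimpleGraph.Walk.length_concat] at this
          exact this
        have h2 : d (par y) = G.dist (ρ y) (par y) := by simp only [d]; rw [hr]
        have h3 := hq2 y
        simp only [d] at h h2
        omega
  · intro y
    have := (hq1 y).length_lt
    simp only [d]
    rw [← hq2 y]
    exact this
  · intro y hy
    simp only [d]
    rw [hy]
    exact SimpleGraph.dist_self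

end Layering

end Vale.Agent.Lib.P064F
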