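import Mathlib

open Finset
open scoped Nat BigOperators

namespace Vale.Agent.Lib.P064F

section ParStr

variable {Y : Type*}

/-- parent structure on `Fin m × Y`. -/
def prodPar (m : ℕ) (par : Y → Option Y) : Fin m × Y → Option (Fin m × Y) :=
  fun a => (par a.2).map (fun v => (a.1, v))

/-- parent structure on a sigma type. -/
def sigPar {C : Type*} {Z : C → Type*} (par : ∀ c, Z c → Option (Z c)) :
    (Σ c, Z c) → Option (Σ c, Z c) :=
  fun a => (par a.1 a.2).map (fun v => ⟨a.1, v⟩)

/-- parent structure on a cone. -/
def conePar (par : Y → Option Y) : Option Y → Option (Option Y) := fun a => a.map par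

/-- permutations preserving a parent structure. -/
abbrev AutOf (par : Y → Option Y) : Type _ :=
  {g : Equiv.Perm Y // ∀ a, par (g a) = (par a).map g}

instance (par : Y → Option Y) : Inhabited (AutOf par) :=
  ⟨⟨Equiv.refl Y, fun a => by simp⟩⟩

lemma card_autOf_pos [Finite Y] (par : Y → Option Y) : 0 < Nat.card (AutOf par) :=
  Nat.card_pos

lemma wreath_card [Finite Y] [Nonempty Y] (m : ℕ) (par : Y → Option Y) :
    m ! * (Nat.card (AutOf par)) ^ m ≤ Nat.card (AutOf (prodPar m par)) := by
  classical
  let f : Equiv.Perm (Fin m) × (Fin m → AutOf par) → AutOf (prodPar m par) := fun x =>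
    ⟨Equiv.prodShear x.1 (fun i => (x.2 i).1), by
      rintro ⟨i, y⟩
      simp only [prodPar, Equiv.prodShear_apply, Option.map_map]
      rw [(x.2 i).2 y, Option.map_map]
      rfl⟩
  have hf : Function.Injective f := by
    rintro ⟨π, γ⟩ ⟨π', γ'⟩ h
    have h1 := congrArg Subtype.val h
    have h2 : ∀ i y, (π i, (γ i).1 y) = (π' i, (γ' i).1 y) := fun i y => by
      have := congrArg (fun g : Equiv.Perm (Fin m × Y) => g (i, y)) h1
      simpa [f] using this
    obtain ⟨y₀⟩ := ‹Nonempty Y›
    have hπ : π = π' := Equiv.ext fun i => (Prod.ext_iff.1 (h2 i y₀)).1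
    have hγ : γ = γ' := by
      funext i
      apply Subtype.ext
      apply Equiv.ext
      intro y
      exact (Prod.ext_iff.1 (h2 i y)).2
    rw [hπ, hγ]
  have := Nat.card_le_card_of_injective f hf
  rw [Nat.card_prod, Nat.card_fun] at this
  simpa [Nat.card_eq_fintype_card, Fintype.card_perm] using this

lemma sigma_card {C : Type*} [Fintype C] {Z : C → Type*} [∀ c, Finite (Z c)]
    (par : ∀ c, Z c → Option (Z c)) :
    ∏ c, Nat.card (AutOf (par c)) ≤ Nat.card (AutOf (sigPar par)) := by
  classical
  let f : (∀ c, AutOf (par c)) → AutOf (sigPar par) := fun γ =>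
    ⟨Equiv.sigmaCongrRight (fun c => (γ c).1), by
      rintro ⟨c, y⟩
      show (par c ((γ c).1 y)).map (fun v => (⟨c, v⟩ : Σ c, Z c)) = _
      rw [(γ c).2 y, Option.map_map]
      simp only [sigPar, Option.map_map]
      rfl⟩
  have hf : Function.Injective f := by
    intro γ γ' h
    have h1 := congrArg Subtype.val h
    funext c
    apply Subtype.ext
    apply Equiv.ext
    intro y
    have := congrArg (fun g : Equiv.Perm (Σ c, Z c) => g ⟨c, y⟩) h1
    simpa [f] using this
  have := Nat.card_le_card_of_injective f hf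
  rwa [Nat.card_pi] at this

lemma cone_card [Finite Y] (par : Y → Option Y) :
    Nat.card (AutOf par) ≤ Nat.card (AutOf (conePar par)) := by
  classical
  let f : AutOf par → AutOf (conePar par) := fun g =>
    ⟨Equiv.optionCongr g.1, by
      rintro (_ | y)
      · simp [conePar]
      · simp only [conePar, Equiv.optionCongr_apply, Option.map_some]
        rw [g.2 y]⟩
  have hf : Function.Injective f := by
    intro g g' h
    have h1 := congrArg Subtype.val h
    apply Subtype.ext
    apply Equiv.ext
    intro y
    have := congrArg (fun G : Equiv.Perm (Option Y) => G (some y)) h1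
    simpa [f] using this
  exact Nat.card_le_card_of_injective f hf

end ParStr

/-- Shapes of rooted trees of height at most `h`, multiplicities at most `M`. -/
def Shape (M : ℕ) : ℕ → Type
  | 0 => Unit
  | h + 1 => Shape M h → Fin (M + 1)

@[instance_reducible] noncomputable def Shape.instFintype (M : ℕ) : ∀ h, Fintype (Shape M h)
  | 0 => inferInstanceAs (Fintype Unit)
  | h + 1 => by
      classical
      letI := Shape.instFintype M h
      exact inferInstanceAs (Fintype (Shape M h → Fin (M + 1)))

noncomputable instance (M h : ℕ) : Fintype (Shape M h) := Shape.instFintype M h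

noncomputable instance (M h : ℕ) : DecidableEq (Shape M h) := Classical.decEq _

/-- Vertices of the tree of a shape. -/
def Node (M : ℕ) : ∀ h, Shape M h → Type
  | 0, _ => Unit
  | h + 1, s => Option (Σ c : Shape M h, Fin (s c) × Node M h c)

/-- The parent map on vertices. -/
def Node.parent (M : ℕ) : ∀ h (s : Shape M h), Node M h s → Option (Node M h s)
  | 0, _ => fun _ => none
  | h + 1, s => conePar (sigPar (fun c => prodPar (s c) (Node.parent M h c)))

/-- The root. -/
def Node.root (M : ℕ) : ∀ h (s : Shape M h), Node M h s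
  | 0, _ => ()
  | _ + 1, _ => none

/-- Depth. -/
def Node.depth (M : ℕ) : ∀ h (s : Shape M h), Node M h s → ℕ
  | 0, _, _ => 0
  | _ + 1, _, none => 0
  | h + 1, _, some ⟨c, _, u⟩ => Node.depth M h c u + 1

instance Node.instFinite (M : ℕ) : ∀ h (s : Shape M h), Finite (Node M h s)
  | 0, _ => inferInstanceAs (Finite Unit)
  | h + 1, s => by
      have := fun c => Node.instFinite M h c
      have : Finite (Shape M h) := Finite.of_fintype _
      exact inferInstanceAs (Finite (Option (Σ c : Shape M h, Fin (s c) × Node M h c)))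

instance (M h : ℕ) (s : Shape M h) : Nonempty (Node M h s) := ⟨Node.root M h s⟩

lemma Node.depth_root (M h : ℕ) (s : Shape M h) : Node.depth M h s (Node.root M h s) = 0 := by
  cases h <;> rfl

lemma Node.parent_root (M h : ℕ) (s : Shape M h) : Node.parent M h s (Node.root M h s) = none := by
  cases h <;> rfl

lemma Node.eq_root_of_parent_none (M : ℕ) : ∀ h (s : Shape M h) (u : Node M h s),
    Node.parent M h s u = none → u = Node.root M h s
  | 0, _, _, _ => rfl
  | _ + 1, _, none, _ => rfl
  | _ + 1, _, some _, hu => by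
      simp [Node.parent, conePar] at hu

lemma Node.parent_some (M h : ℕ) (s : Shape M (h + 1)) (c : Shape M h) (i : Fin (s c))
    (u : Node M h c) :
    Node.parent M (h + 1) s (some ⟨c, i, u⟩)
      = some ((Node.parent M h c u).map (fun v => (⟨c, i, v⟩ : Σ c : Shape M h, Fin (s c) × Node M h c))) := by
  show some ((((Node.parent M h c u).map (fun v => (i, v))).map _)) = _
  rw [Option.map_map]
  rfl

lemma Node.depth_parent (M : ℕ) : ∀ h (s : Shape M h) (u v : Node M h s),
    Node.parent M h s u = some v → Node.depth M h s u = Node.depth M h s v + 1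
  | 0, _, _, _, hu => by simp [Node.parent] at hu
  | h + 1, s, none, v, hu => by simp [Node.parent, conePar] at hu
  | h + 1, s, some ⟨c, i, u⟩, v, hu => by
      rw [Node.parent_some] at hu
      have hv := Option.some.inj hu
      rcases hp : Node.parent M h c u with _ | w
      · rw [hp] at hv
        subst hv
        have := Node.eq_root_of_parent_none M h c u hp
        subst this
        show Node.depth M h c (Node.root M h c) + 1 = 0 + 1
        rw [Node.depth_root]
      · rw [hp] at hv
        subst hv
        show Node.depth M h c u + 1 = (Node.depth M h c w + 1) + 1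
        rw [Node.depth_parent M h c u w hp]

/-- number of edges of a shape -/
noncomputable def edges (M : ℕ) : ∀ h, Shape M h → ℕ
  | 0, _ => 0
  | h + 1, s => ∑ c : Shape M h, (s c : ℕ) * (1 + edges M h c)

/-- Weight: product of factorials of numbers of children. -/
noncomputable def wt (M : ℕ) : ∀ h, Shape M h → ℕ
  | 0, _ => 1
  | h + 1, s => (∑ c : Shape M h, (s c : ℕ))! * ∏ c : Shape M h, (wt M h c) ^ (s c : ℕ)

/-- Rooted automorphism number. -/
noncomputable def autL (M : ℕ) : ∀ h, Shape M h → ℕ
  | 0, _ => 1
  | h + 1, s => ∏ c : Shape M h, ((s c : ℕ)! * (autL M h c) ^ (s c : ℕ))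

lemma card_node (M : ℕ) : ∀ h (s : Shape M h), Nat.card (Node M h s) = 1 + edges M h s
  | 0, _ => by simp [Node, edges]
  | h + 1, s => by
      have hc : ∀ c, Nat.card (Fin (s c) × Node M h c) = (s c : ℕ) * (1 + edges M h c) := by
        intro c
        rw [Nat.card_prod, card_node M h c]
        simp
      have := fun c => Node.instFinite M h c
      show Nat.card (Option (Σ c : Shape M h, Fin (s c) × Node M h c)) = _
      rw [Finite.card_option, Nat.card_sigma, add_comm]
      simp only [edges, hc]

lemma autL_pos (M : ℕ) : ∀ h (s : Shape M h), 0 < autL M h s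
  | 0, _ => by simp [autL]
  | h + 1, s => by
      simp only [autL]
      apply Finset.prod_pos
      intro c _
      have := autL_pos M h c
      positivity

lemma wt_pos (M : ℕ) : ∀ h (s : Shape M h), 0 < wt M h s
  | 0, _ => by simp [wt]
  | h + 1, s => by
      simp only [wt]
      apply Nat.mul_pos (Nat.factorial_pos _)
      apply Finset.prod_pos
      intro c _
      have := wt_pos M h c
      positivity

lemma autL_le_card (M : ℕ) : ∀ h (s : Shape M h),
    autL M h s ≤ Nat.card (AutOf (Node.parent M h s))
  | 0, s => by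
      show 1 ≤ _
      exact card_autOf_pos _
  | h + 1, s => by
      have := fun c => Node.instFinite M h c
      have : Finite (Shape M h) := Finite.of_fintype _
      have h1 := cone_card (sigPar (fun c => prodPar (s c) (Node.parent M h c)))
      have h2 := sigma_card (fun c => prodPar (s c) (Node.parent M h c))
      have h3 : ∀ c, (s c : ℕ)! * autL M h c ^ (s c : ℕ)
          ≤ Nat.card (AutOf (prodPar (s c) (Node.parent M h c))) := by
        intro c
        refine le_trans ?_ (wreath_card (s c : ℕ) (Node.parent M h c))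
        gcongr
        exact autL_le_card M h c
      refine le_trans ?_ h1
      refine le_trans ?_ h2
      exact Finset.prod_le_prod' fun c _ => h3 c


lemma term_eq (M h : ℕ) (s : Shape M (h + 1)) :
    ((wt M (h + 1) s : ℝ) / (autL M (h + 1) s : ℝ)) * (1 / 4 : ℝ) ^ (edges M (h + 1) s)
      = (Nat.multinomial univ (fun c => (s c : ℕ)) : ℝ)
        * ∏ c, (((wt M h c : ℝ) / (autL M h c : ℝ)) * (1 / 4 : ℝ) ^ (1 + edges M h c)) ^ (s c : ℕ) := by
  have hspec := Nat.multinomial_spec (univ : Finset (Shape M h)) (fun c => (s c : ℕ))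
  have hfac : (((∑ c : Shape M h, (s c : ℕ))! : ℕ) : ℝ)
      = (∏ c : Shape M h, (((s c : ℕ)! : ℕ) : ℝ)) * (Nat.multinomial univ (fun c => (s c : ℕ)) : ℝ) := by
    rw [← hspec]; push_cast; rfl
  have hwt : (wt M (h + 1) s : ℝ) = (((∑ c : Shape M h, (s c : ℕ))! : ℕ) : ℝ)
      * ∏ c : Shape M h, ((wt M h c : ℝ)) ^ (s c : ℕ) := by
    simp only [wt]; push_cast; rfl
  have haut : (autL M (h + 1) s : ℝ) = (∏ c : Shape M h, (((s c : ℕ)! : ℕ) : ℝ))
      * ∏ c : Shape M h, ((autL M h c : ℝ)) ^ (s c : ℕ) := by
    simp only [autL]; push_cast; rw [Finset.prod_mul_distrib]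
  have hedges : (1 / 4 : ℝ) ^ (edges M (h + 1) s)
      = ∏ c : Shape M h, ((1 / 4 : ℝ) ^ (1 + edges M h c)) ^ (s c : ℕ) := by
    simp only [edges]
    rw [← Finset.prod_pow_eq_pow_sum]
    apply Finset.prod_congr rfl
    intro c _
    rw [← pow_mul, mul_comm]
  have hfacpos : (0 : ℝ) < ∏ c : Shape M h, (((s c : ℕ)! : ℕ) : ℝ) :=
    Finset.prod_pos fun c _ => by positivity
  have hautpos : (0 : ℝ) < ∏ c : Shape M h, ((autL M h c : ℝ)) ^ (s c : ℕ) :=
    Finset.prod_pos fun c _ => by
      have := autL_pos M h c
      positivity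
  rw [hwt, haut, hedges, hfac]
  simp only [mul_pow, Finset.prod_mul_distrib, div_pow, Finset.prod_div_distrib]
  field_simp

lemma geom_le_two (x : ℝ) (h0 : 0 ≤ x) (h1 : x ≤ 1 / 2) (B : ℕ) :
    ∑ K ∈ range B, x ^ K ≤ 2 := by
  have h := mul_neg_geom_sum x B
  have hx : 0 < 1 - x := by linarith
  have hp : 0 ≤ x ^ B := by positivity
  have hs : 0 ≤ ∑ K ∈ range B, x ^ K := Finset.sum_nonneg fun K _ => by positivity
  nlinarith

/-- The prior sum. -/
theorem prior_sum (M : ℕ) : ∀ h, ∑ s : Shape M h, ((wt M h s : ℝ) / (autL M h s : ℝ))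
    * (1 / 4 : ℝ) ^ (edges M h s) ≤ 2
  | 0 => by
      have : Subsingleton (Shape M 0) := inferInstanceAs (Subsingleton Unit)
      have h1 := Fintype.sum_subsingleton (fun s : Shape M 0 => ((wt M 0 s : ℝ) / (autL M 0 s : ℝ))
        * (1 / 4 : ℝ) ^ (edges M 0 s)) (show Shape M 0 from ())
      rw [h1]
      simp [wt, autL, edges]
  | h + 1 => by
      classical
      have ih := prior_sum M h
      set b : Shape M h → ℝ := fun c => ((wt M h c : ℝ) / (autL M h c : ℝ))
        * (1 / 4 : ℝ) ^ (1 + edges M h c) with hb
      have hbnn : ∀ c, 0 ≤ b c := fun c => by positivity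
      have hsumb : ∑ c, b c ≤ 1 / 2 := by
        have : ∑ c, b c = (1 / 4) * ∑ s : Shape M h, ((wt M h s : ℝ) / (autL M h s : ℝ))
            * (1 / 4 : ℝ) ^ (edges M h s) := by
          rw [Finset.mul_sum]
          apply Finset.sum_congr rfl
          intro c _
          simp only [hb, pow_add, pow_one]
          ring
        rw [this]
        linarith
      have hsumb0 : 0 ≤ ∑ c, b c := Finset.sum_nonneg fun c _ => hbnn c
      simp_rw [term_eq]
      set t : (Shape M h → ℕ) → ℝ := fun k =>
        (Nat.multinomial univ k : ℝ) * ∏ c, b c ^ k c with ht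
      have htnn : ∀ k, 0 ≤ t k := fun k => by
        simp only [ht]
        have : 0 ≤ ∏ c, b c ^ k c := Finset.prod_nonneg fun c _ => pow_nonneg (hbnn c) _
        positivity
      let Φ : Shape M (h + 1) → (Shape M h → ℕ) := fun s c => (s c : ℕ)
      have hΦ : Function.Injective Φ := by
        intro s s' hs
        funext c
        exact Fin.ext (congrFun hs c)
      set B := Fintype.card (Shape M h) * M + 1 with hB
      have hmaps : ∀ s : Shape M (h + 1), (Finset.univ.sum (Φ s)) ∈ range B := by
        intro s
        rw [Finset.mem_range, hB, Nat.lt_succ_iff]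
        calc Finset.univ.sum (Φ s) ≤ Finset.univ.card • M :=
              Finset.sum_le_card_nsmul _ _ _ fun c _ => Nat.lt_succ_iff.1 (s c).2
          _ = _ := by simp
      have hfib := Finset.sum_fiberwise_of_maps_to (s := (univ : Finset (Shape M (h + 1))))
        (t := range B) (g := fun s => Finset.univ.sum (Φ s)) (fun s _ => hmaps s) (fun s => t (Φ s))
      have hle : ∀ K ∈ range B,
          ∑ s ∈ (univ : Finset (Shape M (h + 1))) with Finset.univ.sum (Φ s) = K, t (Φ s) ≤ (∑ c, b c) ^ K := by
        intro K _
        rw [Finset.sum_pow_eq_sum_piAntidiag]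
        have himg : ∑ s ∈ (univ : Finset (Shape M (h + 1))) with Finset.univ.sum (Φ s) = K, t (Φ s)
            = ∑ k ∈ ((univ : Finset (Shape M (h + 1))).filter (fun s => Finset.univ.sum (Φ s) = K)).image Φ, t k := by
          rw [Finset.sum_image (fun a _ a' _ h => hΦ h)]
        rw [himg]
        apply Finset.sum_le_sum_of_subset_of_nonneg
        · intro k hk
          obtain ⟨s, hs, rfl⟩ := Finset.mem_image.1 hk
          rw [Finset.mem_piAntidiag]
          exact ⟨(Finset.mem_filter.1 hs).2, fun c _ => Finset.mem_univ c⟩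
        · intro k _ _
          exact htnn k
      calc ∑ s : Shape M (h + 1), t (fun c => (s c : ℕ))
          = ∑ K ∈ range B, ∑ s ∈ (univ : Finset (Shape M (h + 1))) with Finset.univ.sum (Φ s) = K, t (Φ s) :=
            hfib.symm
        _ ≤ ∑ K ∈ range B, (∑ c, b c) ^ K := Finset.sum_le_sum hle
        _ ≤ 2 := geom_le_two _ hsumb0 hsumb B

end Vale.Agent.Lib.P064F
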