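import Vale.Agent.Lib.P064F.Packing

open Finset
open scoped Nat BigOperators

namespace Vale.Agent.Lib.P064F

section Top

variable {M n : ℕ} (H : SimpleGraph (Fin n)) (par : Fin n → Fin n) (d : Fin n → ℕ)

/-- A map of a tree with a vertex of minimal depth at its root goes downward. -/
lemma down_of_top (hlay : ∀ x y, H.Adj x y → chG H par d x y ∨ chG H par d y x)
    {h : ℕ} {s : Shape M h} (ψ : Node M h s → Fin n) (hinj : Function.Injective ψ)
    (hadj : ∀ u v, Node.parent M h s u = some v → H.Adj (ψ v) (ψ u))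
    (htop : ∀ u, d (ψ (Node.root M h s)) ≤ d (ψ u)) :
    ∀ u v, Node.parent M h s u = some v → chG H par d (ψ v) (ψ u) := by
  have key : ∀ N u v, Node.depth M h s u = N → Node.parent M h s u = some v →
      chG H par d (ψ v) (ψ u) := by
    intro N
    induction N with
    | zero =>
      intro u v hu hp
      have := Node.depth_parent M h s u v hp
      omega
    | succ N ih =>
      intro u v hu hp
      rcases hlay _ _ (hadj u v hp) with h1 | h1
      · exact h1
      · exfalso
        obtain ⟨_, h2, h3⟩ := h1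
        rcases hv : Node.parent M h s v with _ | v'
        · have h4 := Node.eq_root_of_parent_none M h s v hv
          have h5 := htop u
          rw [← h4, h3] at h5
          omega
        · have hdv := Node.depth_parent M h s u v hp
          have h4 := ih v v' (by omega) hv
          have h5 : ψ u = ψ v' := by rw [← h2, h4.2.1]
          have h6 := hinj h5
          subst h6
          have h7 := Node.depth_parent M h s v u hv
          omega
  intro u v hp
  exact key _ u v rfl hp

end Top

section Tree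

variable {n : ℕ} (H : SimpleGraph (Fin n)) (par : Fin n → Fin n) (d : Fin n → ℕ)
variable {W : Type*} [Fintype W] [DecidableEq W]

open Classical in
/-- Injective homomorphisms of `T` into `H`. -/
noncomputable def injHoms (T : SimpleGraph W) : Finset (W → Fin n) :=
  (univ : Finset (W → Fin n)).filter
    (fun f => Function.Injective f ∧ ∀ a b, T.Adj a b → H.Adj (f a) (f b))

/-- Representing a tree rooted at `t` by a shape. -/
lemma exists_shape_of_tree (T : SimpleGraph W) (hT : T.IsTree) (t : W)
    (hcard : Fintype.card W ≤ n) :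
    ∃ (s : Shape n (Fintype.card W - 1)) (β : Node n (Fintype.card W - 1) s → W),
      Function.Bijective β ∧ β (Node.root n _ s) = t ∧
      (∀ u v, Node.parent n _ s u = some v → T.Adj (β v) (β u)) ∧
      edges n _ s = Fintype.card W - 1 := by
  classical
  obtain ⟨parT, dT, hlay, hzero, hroot, hlt, hz⟩ := exists_layering T hT.isAcyclic (fun _ => t)
    (fun x => hT.1.preconnected t x) (fun _ _ _ => rfl)
  have hdt : dT t = 0 := hz t rfl
  have hch : ∀ x y, chG T parT dT x y → parT y = x ∧ dT y = dT x + 1 := fun x y h => h.2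
  obtain ⟨s, β, hrep, hcov⟩ := exists_rep_covering (M := n) parT dT (chG T parT dT) hcard hch hroot
    (Fintype.card W - 1) (fun y => by have := hlt y; omega) (Fintype.card W - 1) t (by omega)
  have hiter : ∀ N y, dT y = N → parT^[N] y = t := by
    intro N
    induction N with
    | zero => intro y hy; exact hzero y hy
    | succ N ih =>
      intro y hy
      rcases hroot y with h1 | h1
      · omega
      · have h2 := h1.2.2
        rw [Function.iterate_succ_apply]
        exact ih _ (by omega)
  have hsurj : Function.Surjective β := by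
    intro y
    exact hcov y (dT y) (hiter _ y rfl) (by omega)
  have hbij : Function.Bijective β := ⟨hrep.inj, hsurj⟩
  refine ⟨s, β, hbij, hrep.root, fun u v hp => (hrep.par_ch u v hp).1, ?_⟩
  have h1 := Nat.card_eq_of_bijective β hbij
  rw [card_node, Nat.card_eq_fintype_card] at h1
  omega

lemma count_top (hn : 0 < n) (q : ℝ) (hq0 : 0 < q)
    (hlay : ∀ x y, H.Adj x y → chG H par d x y ∨ chG H par d y x)
    (T : SimpleGraph W) (hT : T.IsTree) (t : W) (hcard : Fintype.card W ≤ n) :
    let Chat := 4 * ((n : ℝ) * q)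
    ((((injHoms H T).filter (fun f => ∀ a, d (f t) ≤ d (f a))).card : ℕ) : ℝ)
      ≤ (1000 * Chat) ^ (Fintype.card W - 1) * ∑ w, max 2
        (AA par d (chG H par d) Chat n (Fintype.card W - 1) w / max (1000 * Chat) 1) := by
  classical
  intro Chat
  have hnr : (0 : ℝ) < n := by exact_mod_cast hn
  have hC : 0 < Chat := by positivity
  obtain ⟨s, β, hbij, hβt, hβadj, hedges⟩ := exists_shape_of_tree (n := n) T hT t hcard
  have hch : ∀ x y, chG H par d x y → par y = x ∧ d y = d x + 1 := fun x y h => h.2
  have hfV : Fintype.card (Fin n) ≤ n := by simp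
  have hsub : ((injHoms H T).filter (fun f => ∀ a, d (f t) ≤ d (f a))).image (fun f => f ∘ β)
      ⊆ (univ : Finset (Fin n)).biUnion (fun w => downMaps (chG H par d) _ s w) := by
    intro ψ hψ
    obtain ⟨f, hf, rfl⟩ := Finset.mem_image.1 hψ
    obtain ⟨hf1, hftop⟩ := Finset.mem_filter.1 hf
    obtain ⟨_, hfinj, hfadj⟩ := Finset.mem_filter.1 hf1
    refine Finset.mem_biUnion.2 ⟨f t, mem_univ _, ?_⟩
    have hinj : Function.Injective (f ∘ β) := hfinj.comp hbij.1
    refine Finset.mem_filter.2 ⟨mem_univ _, by simp [hβt], hinj, ?_⟩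
    apply down_of_top H par d hlay (f ∘ β) hinj
    · intro u v hp
      exact hfadj _ _ (hβadj u v hp)
    · intro u
      simp only [Function.comp, hβt]
      exact hftop _
  have hinjmap : Set.InjOn (fun f : W → Fin n => f ∘ β)
      (↑((injHoms H T).filter (fun f => ∀ a, d (f t) ≤ d (f a))) : Set (W → Fin n)) := by
    intro f _ f' _ he
    exact hbij.2.injective_comp_right he
  have h1 := Finset.card_le_card hsub
  rw [Finset.card_image_of_injOn hinjmap] at h1
  have h2 := h1.trans Finset.card_biUnion_le
  have h3 : (((injHoms H T).filter (fun f => ∀ a, d (f t) ≤ d (f a))).card : ℝ)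
      ≤ ∑ w, ((downMaps (chG H par d) _ s w).card : ℝ) := by
    exact_mod_cast h2
  refine le_trans h3 ?_
  rw [Finset.mul_sum]
  apply Finset.sum_le_sum
  intro w _
  have := claim1 par d (chG H par d) Chat hC hch hfV _ s w
  rwa [hedges] at this

lemma sum_max_le (hn : 0 < n) (q : ℝ) (hq0 : 0 < q) (hq1 : q ≤ 1)
    (hyp : ∀ F : SimpleGraph (Fin n), F ≤ H → (1 / 2 : ℝ) ≤ copies ⊤ F * q ^ numEdges F) (h : ℕ) :
    let Chat := 4 * ((n : ℝ) * q)
    ∑ w, max 2 (AA par d (chG H par d) Chat n h w / max (1000 * Chat) 1)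
      ≤ (2 + ((h : ℝ) + 1) * 12) * n := by
  intro Chat
  have h2 := claim2 H par d hn q hq0 hq1 hyp h
  have h3 : ∀ w, max 2 (AA par d (chG H par d) Chat n h w / max (1000 * Chat) 1)
      ≤ 2 + AA par d (chG H par d) Chat n h w := by
    intro w
    have hA := one_le_AA (M := n) par d (chG H par d) Chat h w
    apply max_le
    · linarith
    · have hΘ : (1 : ℝ) ≤ max (1000 * Chat) 1 := le_max_right _ _
      have : AA par d (chG H par d) Chat n h w / max (1000 * Chat) 1
          ≤ AA par d (chG H par d) Chat n h w := div_le_self (by linarith) hΘ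
      linarith
  calc _ ≤ ∑ w : Fin n, (2 + AA par d (chG H par d) Chat n h w) := Finset.sum_le_sum fun w _ => h3 w
    _ = 2 * n + ∑ w, AA par d (chG H par d) Chat n h w := by
        rw [Finset.sum_add_distrib]
        simp [mul_comm]
    _ ≤ 2 * n + ((h : ℝ) + 1) * (12 * n) := by
        have := claim2 H par d hn q hq0 hq1 hyp h
        linarith
    _ = _ := by ring

lemma num_52 (x : ℕ) (hx : 1 ≤ x) : ((x : ℝ) + 1) * (2 + ((x : ℝ) + 1) * 12) ≤ 52 ^ x := by
  induction x, hx using Nat.le_induction with
  | base => norm_num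
  | succ x hx ih =>
    push_cast
    have hx' : (1 : ℝ) ≤ x := by exact_mod_cast hx
    rw [pow_succ]
    nlinarith

theorem tree_bound (hn : 0 < n) (q : ℝ) (hq0 : 0 < q) (hq1 : q ≤ 1)
    (hyp : ∀ F : SimpleGraph (Fin n), F ≤ H → (1 / 2 : ℝ) ≤ copies ⊤ F * q ^ numEdges F)
    (hlay : ∀ x y, H.Adj x y → chG H par d x y ∨ chG H par d y x)
    (T : SimpleGraph W) (hT : T.IsTree) (hcard : Fintype.card W ≤ n) (hW : 2 ≤ Fintype.card W) :
    ((injHoms H T).card : ℝ) ≤ (n : ℝ) ^ Fintype.card W * (208000 * q) ^ (Fintype.card W - 1) := by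
  classical
  set x := Fintype.card W - 1 with hx
  have hWx : Fintype.card W = x + 1 := by omega
  have hx1 : 1 ≤ x := by omega
  set Chat := 4 * ((n : ℝ) * q) with hChat
  have hnr : (0 : ℝ) < n := by exact_mod_cast hn
  have hC : 0 < Chat := by positivity
  have : Nonempty W := by
    apply Fintype.card_pos_iff.1; omega
  have hcover : injHoms H T ⊆ (univ : Finset W).biUnion
      (fun t => (injHoms H T).filter (fun f => ∀ a, d (f t) ≤ d (f a))) := by
    intro f hf
    obtain ⟨t, _, ht⟩ := Finset.exists_min_image (univ : Finset W) (fun a => d (f a)) univ_nonempty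
    exact Finset.mem_biUnion.2 ⟨t, mem_univ _, Finset.mem_filter.2 ⟨hf, fun a => ht a (mem_univ _)⟩⟩
  have h1 := (Finset.card_le_card hcover).trans Finset.card_biUnion_le
  have h2 : ((injHoms H T).card : ℝ) ≤ ∑ t : W,
      (((injHoms H T).filter (fun f => ∀ a, d (f t) ≤ d (f a))).card : ℝ) := by
    exact_mod_cast h1
  have h3 : ∀ t : W, (((injHoms H T).filter (fun f => ∀ a, d (f t) ≤ d (f a))).card : ℝ)
      ≤ (1000 * Chat) ^ x * ((2 + ((x : ℝ) + 1) * 12) * n) := by
    intro t
    have h4 := count_top H par d hn q hq0 hlay T hT t hcard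
    have h5 := sum_max_le H par d hn q hq0 hq1 hyp x
    simp only at h4 h5
    refine le_trans h4 ?_
    rw [← hChat] at h5
    gcongr
  have h6 : ((injHoms H T).card : ℝ) ≤ ((x : ℝ) + 1) * ((1000 * Chat) ^ x * ((2 + ((x : ℝ) + 1) * 12) * n)) := by
    refine le_trans h2 ?_
    refine le_trans (Finset.sum_le_sum fun t _ => h3 t) ?_
    rw [Finset.sum_const, Finset.card_univ, hWx, nsmul_eq_mul]
    push_cast
    exact le_refl _
  have h7 := num_52 x hx1
  have h8 : (0 : ℝ) ≤ (1000 * Chat) ^ x * n := by positivity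
  rw [hWx]
  calc ((injHoms H T).card : ℝ)
      ≤ ((x : ℝ) + 1) * ((1000 * Chat) ^ x * ((2 + ((x : ℝ) + 1) * 12) * n)) := h6
    _ = (((x : ℝ) + 1) * (2 + ((x : ℝ) + 1) * 12)) * ((1000 * Chat) ^ x * n) := by ring
    _ ≤ 52 ^ x * ((1000 * Chat) ^ x * n) := by gcongr
    _ = (52 * (1000 * Chat)) ^ x * n := by rw [mul_pow (52 : ℝ) (1000 * Chat) x]; ring
    _ = ((n : ℝ) * (208000 * q)) ^ x * n := by
        congr 2
        rw [hChat]
        ring
    _ = (n : ℝ) ^ (x + 1) * (208000 * q) ^ x := by
        rw [mul_pow, pow_succ]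
        ring

end Tree

end Vale.Agent.Lib.P064F
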